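import Vale.Agent.P097.H929.Blow

/-! # P097 / row (WORLD): the blown up world at the thin layer, straight coordinates, filters -/

set_option linter.all false

open scoped ComplexConjugate Topology
open Filter Metric Set Complex

namespace Vale.Agent.P097.H929

open Vale.Agent.P097.H85

/-- the linear change of coordinates -/
noncomputable def lsh (c σ : ℝ) (p : ℂ × ℂ) : ℂ × ℂ := (p.1 + (I * c + σ) * p.2, p.2)

/-- the actual point of the straight blown up coordinates `(κ, w)` -/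
noncomputable def kpt (R c σ y u r : ℝ) (p : ℂ × ℂ) : ℂ × ℂ := bpt R y u r (lsh c σ p)

theorem kpt_eq (R c σ y u r : ℝ) (p : ℂ × ℂ) :
    kpt R c σ y u r p = ((y : ℂ) + (R : ℂ) * I + r * (p.1 + (I * c + σ) * p.2), (u : ℂ) + r * p.2) :=
  rfl

theorem lsh_im (c σ : ℝ) (p : ℂ × ℂ) :
    (lsh c σ p).1.im = p.1.im + c * p.2.re + σ * p.2.im := by
  simp only [lsh, add_im, mul_im, add_re, mul_re, I_re, I_im, ofReal_re, ofReal_im]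
  ring

theorem continuous_lsh (c σ : ℝ) : Continuous (lsh c σ) := by
  unfold lsh
  fun_prop

/-- what is used of the layer -/
structure Lay (Mj Mk : Set (ℂ × ℂ)) (b : ℝ) (A : Set ℝ) (P : ℝ → ℂ) (c : ℝ → ℝ)
    (y₀ u₀ σ s : ℝ) : Prop where
  dn : Dn b Mj
  u0 : u₀ ∈ A
  cR : ContinuousOn (fun u => (P u).im) A
  cc : ContinuousOn c A
  hb : b < (P u₀).im
  regj : ∀ δ > 0, RegB Mj b A P c y₀ u₀ (σ - δ)
  regk : ∀ δ > 0, RegB Mk b A P c y₀ u₀ (s - δ)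
  tch : Tch Mj b A P c y₀ u₀ σ

section
variable {Mj Mk : Set (ℂ × ℂ)} {b : ℝ} {A : Set ℝ} {P : ℝ → ℂ} {c : ℝ → ℝ} {y₀ u₀ σ s : ℝ}
variable {ι : Type*} {l : Filter ι} {y u r : ι → ℝ}

theorem ev_of (hy : Tendsto y l (𝓝 y₀)) (hu : Tendsto u l (𝓝 u₀)) (huA : ∀ᶠ n in l, u n ∈ A)
    (hr : Tendsto r l (𝓝[>] 0)) {Q : ℝ → ℝ → ℝ → Prop} {d r₀ : ℝ} (hd : 0 < d) (hr₀ : 0 < r₀)
    (h : ∀ u ∈ A, |u - u₀| < d → ∀ y : ℝ, |y - y₀| < d → ∀ r : ℝ, 0 < r → r < r₀ → Q u y r) :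
    ∀ᶠ n in l, Q (u n) (y n) (r n) := by
  have h1 : ∀ᶠ n in l, |y n - y₀| < d := by
    have := Metric.tendsto_nhds.1 hy d hd
    simpa [Real.dist_eq] using this
  have h2 : ∀ᶠ n in l, |u n - u₀| < d := by
    have := Metric.tendsto_nhds.1 hu d hd
    simpa [Real.dist_eq] using this
  have h3 : ∀ᶠ n in l, 0 < r n ∧ r n < r₀ :=
    hr.eventually (Ioo_mem_nhdsGT hr₀)
  filter_upwards [h1, h2, huA, h3] with n a1 a2 a3 a4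
  exact h (u n) a3 a2 (y n) a1 (r n) a4.1 a4.2

/-- **(Wj)** -/
theorem Lay.wj (h : Lay Mj Mk b A P c y₀ u₀ σ s) (hy : Tendsto y l (𝓝 y₀))
    (hu : Tendsto u l (𝓝 u₀)) (huA : ∀ᶠ n in l, u n ∈ A) (hr : Tendsto r l (𝓝[>] 0))
    {K : Set (ℂ × ℂ)} (hK : IsCompact K) (hKG : K ⊆ {p | p.1.im < 0 ∧ 0 < p.2.im}) :
    ∀ᶠ n in l, ∀ p ∈ K, kpt (P (u n)).im (c u₀) σ (y n) (u n) (r n) p ∈ Mj := by
  have hK' : IsCompact (lsh (c u₀) σ '' K) := hK.image (continuous_lsh _ _)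
  have hKG' : lsh (c u₀) σ '' K ⊆ Gc (c u₀) σ := by
    rintro _ ⟨p, hp, rfl⟩
    refine ⟨(hKG hp).2, ?_⟩
    rw [lsh_im]
    have := (hKG hp).1
    show p.1.im + c u₀ * p.2.re + σ * p.2.im < c u₀ * p.2.re + σ * p.2.im
    linarith
  obtain ⟨d, hd, r₀, hr₀, hb⟩ := blow_dom h.u0 h.cR h.cc h.hb h.regj hK' hKG'
  have := ev_of hy hu huA hr (Q := fun u y r => ∀ p ∈ lsh (c u₀) σ '' K,
    bpt (P u).im y u r p ∈ Mj) hd hr₀ hb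
  filter_upwards [this] with n hn p hp
  exact hn _ ⟨p, hp, rfl⟩

/-- **(Wk)** -/
theorem Lay.wk (h : Lay Mj Mk b A P c y₀ u₀ σ s) (hy : Tendsto y l (𝓝 y₀))
    (hu : Tendsto u l (𝓝 u₀)) (huA : ∀ᶠ n in l, u n ∈ A) (hr : Tendsto r l (𝓝[>] 0))
    {K : Set (ℂ × ℂ)} (hK : IsCompact K)
    (hKG : K ⊆ {p | 0 < p.2.im ∧ p.1.im < (s - σ) * p.2.im}) :
    ∀ᶠ n in l, ∀ p ∈ K, kpt (P (u n)).im (c u₀) σ (y n) (u n) (r n) p ∈ Mk := by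
  have hK' : IsCompact (lsh (c u₀) σ '' K) := hK.image (continuous_lsh _ _)
  have hKG' : lsh (c u₀) σ '' K ⊆ Gc (c u₀) s := by
    rintro _ ⟨p, hp, rfl⟩
    refine ⟨(hKG hp).1, ?_⟩
    rw [lsh_im]
    have := (hKG hp).2
    show p.1.im + c u₀ * p.2.re + σ * p.2.im < c u₀ * p.2.re + s * p.2.im
    linarith
  obtain ⟨d, hd, r₀, hr₀, hb⟩ := blow_dom h.u0 h.cR h.cc h.hb h.regk hK' hKG'
  have := ev_of hy hu huA hr (Q := fun u y r => ∀ p ∈ lsh (c u₀) σ '' K,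
    bpt (P u).im y u r p ∈ Mk) hd hr₀ hb
  filter_upwards [this] with n hn p hp
  exact hn _ ⟨p, hp, rfl⟩

/-- **(TT)** -/
theorem Lay.tt (h : Lay Mj Mk b A P c y₀ u₀ σ s) (hy : Tendsto y l (𝓝 y₀))
    (hu : Tendsto u l (𝓝 u₀)) (huA : ∀ᶠ n in l, u n ∈ A) (hr : Tendsto r l (𝓝[>] 0))
    {p : ℂ × ℂ} (hp1 : p.1.im = 0) (hp2 : 0 < p.2.im) (hp3 : |p.2.re| ≤ p.2.im / 2)
    {ε : ℝ} (hε : 0 < ε) :
    ∀ᶠ n in l, ∃ p' : ℂ × ℂ, ‖p'.1 - p.1‖ < ε ∧ ‖p'.2 - p.2‖ < ε ∧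
      kpt (P (u n)).im (c u₀) σ (y n) (u n) (r n) p' ∉ Mj := by
  set C : ℝ := ‖(I * (c u₀ : ℂ) + σ)‖ with hC
  have hC0 : 0 ≤ C := norm_nonneg _
  set ε' : ℝ := ε / (2 * (1 + C)) with hε'
  have hε'0 : 0 < ε' := by positivity
  have hε'1 : (1 + C) * ε' = ε / 2 := by rw [hε']; field_simp
  have hε'2 : ε' ≤ ε / 2 := by nlinarith
  obtain ⟨d, hd, r₀, hr₀, hb⟩ := blow_touch h.dn h.u0 h.cR h.cc h.hb h.regj h.tch
    (z := lsh (c u₀) σ p) hp2 hp3 (by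
      rw [lsh_im, hp1]
      show 0 + c u₀ * p.2.re + σ * p.2.im = c u₀ * p.2.re + σ * p.2.im
      ring) hε'0
  have := ev_of hy hu huA hr (Q := fun u y r => ∃ q : ℂ × ℂ, ‖q.1 - (lsh (c u₀) σ p).1‖ < ε' ∧
    ‖q.2 - (lsh (c u₀) σ p).2‖ < ε' ∧ bpt (P u).im y u r q ∉ Mj) hd hr₀ hb
  filter_upwards [this] with n hn
  obtain ⟨q, hq1, hq2, hq3⟩ := hn
  refine ⟨(q.1 - (I * (c u₀ : ℂ) + σ) * q.2, q.2), ?_, ?_, ?_⟩
  · have e1 : q.1 - (I * (c u₀ : ℂ) + σ) * q.2 - p.1 = (q.1 - (lsh (c u₀) σ p).1) -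
        (I * (c u₀ : ℂ) + σ) * (q.2 - (lsh (c u₀) σ p).2) := by
      simp only [lsh]; ring
    simp only
    rw [e1]
    refine (norm_sub_le _ _).trans_lt ?_
    rw [norm_mul]
    have e2 : C * ‖q.2 - (lsh (c u₀) σ p).2‖ ≤ C * ε' :=
      mul_le_mul_of_nonneg_left hq2.le hC0
    have e3 : (1 + C) * ε' = ε' + C * ε' := by ring
    linarith
  · show ‖q.2 - p.2‖ < ε
    have : ‖q.2 - p.2‖ < ε' := hq2
    linarith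
  · have e1 : kpt (P (u n)).im (c u₀) σ (y n) (u n) (r n)
        (q.1 - (I * (c u₀ : ℂ) + σ) * q.2, q.2) = bpt (P (u n)).im (y n) (u n) (r n) q := by
      unfold kpt lsh
      simp
    rw [e1]
    exact hq3

end

/-- the layer from the drop -/
theorem exists_lay {Mj Mk : Set (ℂ × ℂ)} {b m : ℝ} {Ψ : ℂ → ℂ} {A : Set ℝ} {P : ℝ → ℂ}
    {c k : ℝ → ℝ} (hMj : RH b Mj) (hMk : RH b Mk) (hUj : CmpU Mj b m Ψ A P c k)
    (hUk : CmpU Mk b m Ψ A P c k) (hbm : b < m) (hA : IsCompact A) (hne : A.Nonempty)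
    (hR : ContinuousOn (fun u => (P u).im) A) (hc : ContinuousOn c A)
    (hbP : ∀ u ∈ A, b < (P u).im) {y₁ y₂ : ℝ} (hy : y₁ < y₂)
    {s s' c' Λ' r' : ℝ} (hc' : 0 < c') (hr' : 0 < r')
    (hdrop : ∀ u ∈ A, ∀ y : ℝ, y₁ < y → y < y₂ → ∀ r : ℝ, 0 < r → r < r' →
      ¬ Win b u (P u).im (c u) y r s' c' Λ' ⊆ Mj)
    (hwin : ∀ u ∈ A, ∀ y : ℝ, y₁ < y → y < y₂ → ∀ δ > 0, RegB Mk b A P c y u (s - δ)) :
    ∃ y₀ u₀ σ : ℝ, y₁ < y₀ ∧ y₀ < y₂ ∧ σ ≤ s' ∧ Lay Mj Mk b A P c y₀ u₀ σ s := by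
  obtain ⟨y₀, u₀, σ, h1, h2, h3, h4, h5, h6⟩ := thin hMj hUj hbm hA hne hR hc hy hc' hr' hdrop
  exact ⟨y₀, u₀, σ, h1, h2, h4, ⟨hMj.dn, h3, hR, hc, hbP u₀ h3, h5, hwin u₀ h3 y₀ h1 h2, h6⟩⟩

end Vale.Agent.P097.H929
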