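import Vale.Agent.P097.H929.Bridge

/-! # P097 / row (BR-TOUCH), part 2: TOUCH for the positions in the blown up world -/

set_option linter.all false

open scoped ComplexConjugate Topology
open Filter Metric Set Complex

namespace Vale.Agent.P097.H929

open Vale.Agent.P097.H85 Vale.Agent.P097.TA Vale.Agent.P097.H543

/-- the position `θ` and the components of the line `L_j`, as functions of the position and of the
point (i.e. of the line `L_k`) -/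
structure Comp (b H : ℝ) {κ : Type*} (f : κ → ℂ → ℂ → ℂ) (B : κ → Set (ℂ × ℂ))
    (Mj Mk D : Set (ℂ × ℂ)) (Φ : κ → ℂ × (ℂ × ℂ) → ℂ) (θ : ℂ × ℂ → ℂ) : Prop where
  dn : ∀ i, Dn b (B i)
  jd : ∀ i, JD (f i) (B i)
  sub : ∀ i, Mj ⊆ Mx b (f i) (B i)
  sup : ∀ z, (∀ i, z ∈ Mx b (f i) (B i)) → z ∈ Mj
  dΦ : ∀ i, DifferentiableOn ℂ (Φ i) {q | |q.1.im| < H ∧ q.2 ∈ Mk}
  rel : ∀ i, ∀ z ∈ D, gx b (f i) (B i) z.1 z.2 = Φ i (θ z, z)

section
variable {Mj Mk D : Set (ℂ × ℂ)} {b H : ℝ} {A : Set ℝ} {P : ℝ → ℂ} {c : ℝ → ℝ} {y₀ u₀ σ s : ℝ}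
variable {ι : Type*} {l : Filter ι} {y u r : ι → ℝ}

/-- the height stays above `b` -/
theorem ev_b (h : Lay Mj Mk b A P c y₀ u₀ σ s) (hu : Tendsto u l (𝓝 u₀))
    (huA : ∀ᶠ n in l, u n ∈ A) (hr : Tendsto r l (𝓝[>] 0)) (C : ℝ) :
    ∀ᶠ n in l, b ≤ (P (u n)).im + r n * C := by
  have h1 : Tendsto (fun n => (P (u n)).im) l (𝓝 (P u₀).im) := by
    have h2 : Tendsto u l (𝓝[A] u₀) := tendsto_nhdsWithin_iff.2 ⟨hu, huA⟩
    exact (h.cR u₀ h.u0).tendsto.comp h2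
  have h3 : Tendsto (fun n => r n * C) l (𝓝 (0 * C)) :=
    (hr.mono_right nhdsWithin_le_nhds).mul_const C
  rw [zero_mul] at h3
  have h4 := h1.add h3
  rw [add_zero] at h4
  exact (h4.eventually (lt_mem_nhds h.hb)).mono fun _ hn => hn.le

/-- **TOUCH for the positions.** -/
theorem touch_of_lay {κ : Type*} {f : κ → ℂ → ℂ → ℂ} {B : κ → Set (ℂ × ℂ)}
    {Φ : κ → ℂ × (ℂ × ℂ) → ℂ} {θ : ℂ × ℂ → ℂ} (h : Lay Mj Mk b A P c y₀ u₀ σ s) (hσs : σ < s)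
    (hC : Comp b H f B Mj Mk D Φ θ) (hy : Tendsto y l (𝓝 y₀))
    (hu : Tendsto u l (𝓝 u₀)) (huA : ∀ᶠ n in l, u n ∈ A) (hr : Tendsto r l (𝓝[>] 0))
    (hD : ∀ K : Set (ℂ × ℂ), IsCompact K → K ⊆ {p | p.1.im < 0 ∧ 0 < p.2.im} →
      ∀ᶠ n in l, ∀ p ∈ K, kpt (P (u n)).im (c u₀) σ (y n) (u n) (r n) p ∈ D)
    {w₀ : ℂ} (hw : 0 < w₀.im) (hw' : |w₀.re| ≤ w₀.im / 2) (a : ℝ) {δ₀ : ℝ} (hδ₀ : 0 < δ₀) :
    ∃ ε > 0, ∀ᶠ n in l, ¬ ∃ g : ℂ × ℂ → ℂ, DifferentiableOn ℂ g (ball ((a : ℂ), w₀) δ₀) ∧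
      ∀ p ∈ ball ((a : ℂ), w₀) δ₀, |(g p).im| < H ∧
        (p.1.im ≤ -ε → g p = θ (kpt (P (u n)).im (c u₀) σ (y n) (u n) (r n) p)) := by
  have hsσ : 0 < s - σ := by linarith
  set δ : ℝ := min δ₀ (min (w₀.im / 2) ((s - σ) * w₀.im / 4)) with hδd
  have hδ : 0 < δ := by positivity
  have hδ1 : δ ≤ δ₀ := min_le_left _ _
  have hδ2 : δ ≤ w₀.im / 2 := (min_le_right _ _).trans (min_le_left _ _)
  have hδ3 : δ ≤ (s - σ) * w₀.im / 4 := (min_le_right _ _).trans (min_le_right _ _)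
  have hball : ∀ p : ℂ × ℂ, ‖p.1 - a‖ < δ → ‖p.2 - w₀‖ < δ → p ∈ ball ((a : ℂ), w₀) δ₀ := by
    intro p h1 h2
    rw [mem_ball, Prod.dist_eq, max_lt_iff, dist_eq_norm, dist_eq_norm]
    exact ⟨by linarith, by linarith⟩
  -- compact sets
  have hKk : IsCompact (closedBall (a : ℂ) δ ×ˢ closedBall w₀ δ) :=
    (isCompact_closedBall _ _).prod (isCompact_closedBall _ _)
  have hKk' : closedBall (a : ℂ) δ ×ˢ closedBall w₀ δ ⊆
      {p : ℂ × ℂ | 0 < p.2.im ∧ p.1.im < (s - σ) * p.2.im} := by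
    rintro p ⟨h1, h2⟩
    rw [mem_closedBall, dist_eq_norm] at h1 h2
    have e1 := (Complex.abs_im_le_norm _).trans h1
    have e2 := (Complex.abs_im_le_norm _).trans h2
    rw [sub_im, ofReal_im, sub_zero] at e1
    rw [sub_im] at e2
    have e3 := (abs_le.1 e1).2
    have e4 := (abs_le.1 e2).1
    have e5 : w₀.im / 2 ≤ p.2.im := by linarith
    refine ⟨by linarith, ?_⟩
    have e6 := mul_le_mul_of_nonneg_left e5 hsσ.le
    have e7 : 0 < (s - σ) * w₀.im := by positivity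
    linarith
  set K₁ : Set (ℂ × ℂ) := (closedBall (a : ℂ) δ ×ˢ closedBall w₀ (δ / 2)) ∩
    {p | p.1.im ≤ -(δ / 16)} with hK₁
  have hK₁c : IsCompact K₁ := by
    apply ((isCompact_closedBall _ _).prod (isCompact_closedBall _ _)).inter_right
    have c1 : Continuous fun p : ℂ × ℂ => p.1.im := by fun_prop
    exact isClosed_le c1 continuous_const
  have hK₁s : K₁ ⊆ {p : ℂ × ℂ | p.1.im < 0 ∧ 0 < p.2.im} := by
    rintro p ⟨⟨h1, h2⟩, h3⟩
    rw [mem_closedBall, dist_eq_norm] at h2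
    have e2 := (Complex.abs_im_le_norm _).trans h2
    rw [sub_im] at e2
    have e4 := (abs_le.1 e2).1
    have h3' : p.1.im ≤ -(δ / 16) := h3
    exact ⟨by linarith, by linarith⟩
  set η : ℝ := δ / (16 * (1 + |c u₀| + |σ|)) with hη
  have hη0 : 0 < η := by positivity
  have hη1 : (1 + |c u₀| + |σ|) * η ≤ δ / 16 := by
    rw [hη]
    apply le_of_eq
    field_simp
  have ek := h.wk hy hu huA hr hKk hKk'
  have ej := h.wj hy hu huA hr hK₁c hK₁s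
  have eD := hD K₁ hK₁c hK₁s
  have eb := ev_b h hu huA hr (-(δ / 4) + c u₀ * w₀.re + σ * w₀.im)
  have et := h.tt hy hu huA hr (p := ((a : ℂ), w₀)) (by simp) hw hw' hη0
  have er : ∀ᶠ n in l, 0 < r n := hr.eventually self_mem_nhdsWithin
  refine ⟨δ / 16, by positivity, ?_⟩
  filter_upwards [ek, ej, eD, eb, et, er] with n k1 k2 k3 k4 k5 k6
  rintro ⟨g, hg1, hg2⟩
  obtain ⟨p', q1, q2, q3⟩ := k5
  apply q3
  apply hC.sup
  intro i
  refine bridge (hC.dn i) (hC.jd i) (Mk := Mk) (D := D) (hC.dΦ i) (hC.rel i) k6 (a := a)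
    (w₀ := w₀) (δ := δ) (ε := δ / 16) (η := η) hδ le_rfl ?_ ?_ (g := g) ?_ ?_ ?_ k4 hη0 hη1 p' q1 q2
  · intro p h1 h2
    exact k1 p ⟨by rw [mem_closedBall, dist_eq_norm]; exact h1.le,
      by rw [mem_closedBall, dist_eq_norm]; exact h2.le⟩
  · intro p h1 h2 h3 h4
    have hm : p ∈ K₁ := by
      refine ⟨⟨?_, ?_⟩, h3.le⟩
      · rw [mem_closedBall, dist_eq_norm]
        refine (Complex.norm_le_abs_re_add_abs_im _).trans ?_
        rw [sub_re, sub_im, ofReal_re, ofReal_im, sub_zero]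
        have : |p.1.im| ≤ δ / 2 := abs_le.2 ⟨by linarith, by linarith⟩
        linarith
      · rw [mem_closedBall, dist_eq_norm]
        exact h4.le
    exact ⟨k3 p hm, hC.sub i (k2 p hm)⟩
  · exact hg1.mono fun p hp => hball p hp.1 hp.2
  · intro p h1 h2
    exact (hg2 p (hball p h1 h2)).1
  · intro p h1 h2 h3
    exact (hg2 p (hball p h1 h2)).2 h3

end

end Vale.Agent.P097.H929
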