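import Vale.Agent.P097.H929.Thin

/-! # P097 / row (THIN), part 2: the spread lemma -/

set_option linter.all false

open scoped ComplexConjugate Topology
open Filter Metric Set Complex

namespace Vale.Agent.P097.H929

open Vale.Agent.P097.H85

/-- uniform regularity of the windows of slope `s` near `(y, u)` -/
def RegB (M : Set (ℂ × ℂ)) (b : ℝ) (A : Set ℝ) (P : ℝ → ℂ) (c : ℝ → ℝ) (y u s : ℝ) : Prop :=
  ∃ d > 0, ∀ c₂ > 0, ∀ Λ₂ : ℝ, ∃ r₀ > 0, ∀ u' ∈ A, |u' - u| < d → ∀ y' : ℝ, |y' - y| < d →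
    ∀ r' : ℝ, 0 < r' → r' < r₀ → Win b u' (P u').im (c u') y' r' s c₂ Λ₂ ⊆ M

theorem RegB.mono {M : Set (ℂ × ℂ)} {b : ℝ} {A : Set ℝ} {P : ℝ → ℂ} {c : ℝ → ℝ} {y u s s' : ℝ}
    (h : RegB M b A P c y u s) (hs : s' ≤ s) : RegB M b A P c y u s' := by
  obtain ⟨d, hd, h⟩ := h
  refine ⟨d, hd, fun c₂ hc₂ Λ₂ => ?_⟩
  obtain ⟨r₀, hr₀, h⟩ := h c₂ hc₂ Λ₂
  exact ⟨r₀, hr₀, fun u' hu' hu'' y' hy' r' hr' hr'' =>
    (win_mono (le_refl _) (le_refl _) hs hr' hc₂).trans (h u' hu' hu'' y' hy' r' hr' hr'')⟩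

theorem RegB.nhd {M : Set (ℂ × ℂ)} {b : ℝ} {A : Set ℝ} {P : ℝ → ℂ} {c : ℝ → ℝ} {y u s : ℝ}
    (h : RegB M b A P c y u s) : ∃ d > 0, ∀ u' y' : ℝ, |u' - u| < d → |y' - y| < d →
      RegB M b A P c y' u' s := by
  obtain ⟨d, hd, h⟩ := h
  refine ⟨d / 2, by positivity, fun u' y' hu' hy' => ⟨d / 2, by positivity, fun c₂ hc₂ Λ₂ => ?_⟩⟩
  obtain ⟨r₀, hr₀, h⟩ := h c₂ hc₂ Λ₂
  refine ⟨r₀, hr₀, fun u'' hu'' hu3 y'' hy'' r' hr' hr'' => h u'' hu'' ?_ y'' ?_ r' hr' hr''⟩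
  · have := abs_sub_le u'' u' u
    linarith
  · have := abs_sub_le y'' y' y
    linarith

/-- **Spread lemma.** -/
theorem spread {M : Set (ℂ × ℂ)} {b m : ℝ} {Ψ : ℂ → ℂ} {A : Set ℝ} {P : ℝ → ℂ} {c k : ℝ → ℝ}
    (hM : RH b M) (hU : CmpU M b m Ψ A P c k) (hbm : b < m)
    (hR : ContinuousOn (fun u => (P u).im) A) (hc : ContinuousOn c A) {δ S₁ : ℝ} (hδ : 0 < δ)
    (hS₁ : 0 ≤ S₁) : ∃ cb > 0, ∃ Λb : ℝ, ∀ c₀ : ℝ, 0 < c₀ → c₀ ≤ cb → ∀ Λ : ℝ, Λb ≤ Λ →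
      ∃ ρ₀ > 0, ∀ s : ℝ, |s| ≤ S₁ → ∀ u ∈ A, ∀ y r : ℝ, 0 < r → r < ρ₀ →
        Win b u (P u).im (c u) y r s c₀ Λ ⊆ M → RegB M b A P c y u (s - δ) := by
  obtain ⟨S, hS⟩ := hU.bd
  -- a positive bound
  set S' : ℝ := |S| with hS'
  have hS'0 : 0 ≤ S' := abs_nonneg _
  have hSc : ∀ u ∈ A, |c u| ≤ S' ∧ |k u| ≤ S' :=
    fun u hu => ⟨(hS u hu).1.trans (le_abs_self _), (hS u hu).2.trans (le_abs_self _)⟩
  set δ' : ℝ := δ / 8 with hδ'
  have hδ'0 : 0 < δ' := by positivity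
  set T : ℝ := S₁ + 4 * δ' + S' with hT
  have hT0 : 0 < T := by positivity
  refine ⟨min (1 / 4) (δ' / (2 * T)), by positivity, 2 + 2 * S' + T + 4 * δ', ?_⟩
  intro c₀ hc₀ hcb Λ hΛb
  have hc4 : c₀ ≤ 1 / 4 := hcb.trans (min_le_left _ _)
  have hcT : T * (2 * c₀) ≤ δ' := by
    have h1 : c₀ ≤ δ' / (2 * T) := hcb.trans (min_le_right _ _)
    rw [le_div_iff₀ (by positivity)] at h1
    linarith
  set ε : ℝ := min (1 / 4) (δ' * (2 * c₀) / 8) with hε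
  have hε0 : 0 < ε := by positivity
  have hε4 : ε ≤ 1 / 4 := min_le_left _ _
  have hε8 : 8 * ε ≤ δ' * (2 * c₀) := by
    have : ε ≤ δ' * (2 * c₀) / 8 := min_le_right _ _
    linarith
  obtain ⟨ρ, hρ, hCmp⟩ := hU.cmp (2 * c₀) (by positivity) ε hε0
  have hmb : 0 < m - b := by linarith
  refine ⟨min ρ ((m - b) / (16 * (T + 2 * δ'))), by positivity, ?_⟩
  intro s hs u hu y r hr hrρ₀ hwin
  have hrρ : r < ρ := hrρ₀.trans_le (min_le_left _ _)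
  have hrmb : (T + 2 * δ') * r ≤ (m - b) / 16 := by
    have h1 : r < (m - b) / (16 * (T + 2 * δ')) := hrρ₀.trans_le (min_le_right _ _)
    rw [lt_div_iff₀ (by positivity)] at h1
    linarith
  -- nearby labels
  have hΛ0 : 0 < Λ := by linarith
  have hq : 0 < δ' * (c₀ * r) / 3 := by positivity
  have hR1 := Metric.continuousOn_iff.1 hR u hu _ hq
  have hc2 := Metric.continuousOn_iff.1 hc u hu (δ' * c₀ / 3) (by positivity)
  obtain ⟨d₁, hd₁, hR1⟩ := hR1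
  obtain ⟨d₂, hd₂, hc2⟩ := hc2
  set d : ℝ := min (min d₁ d₂) (min (r / 16) (δ' * (c₀ * r) / (3 * (S' + 1)))) with hd
  have hd0 : 0 < d := by positivity
  have hdd1 : d ≤ d₁ := (min_le_left _ _).trans (min_le_left _ _)
  have hdd2 : d ≤ d₂ := (min_le_left _ _).trans (min_le_right _ _)
  have hdr : d ≤ r / 16 := (min_le_right _ _).trans (min_le_left _ _)
  have hdS : d * (3 * (S' + 1)) ≤ δ' * (c₀ * r) := by
    have : d ≤ δ' * (c₀ * r) / (3 * (S' + 1)) := (min_le_right _ _).trans (min_le_right _ _)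
    rwa [le_div_iff₀ (by positivity)] at this
  have hlab : ∀ u' ∈ A, |u' - u| < d →
      Win b u' (P u').im (c u') y (r / 2) (s - δ') (2 * c₀) Λ ⊆ M := by
    intro u' hu' hu''
    refine (win_label hr hδ'0.le hc₀ (by linarith) (by simp; positivity) ?_).trans hwin
    have e1 := hR1 u' hu' (by rw [Real.dist_eq]; linarith)
    have e2 := hc2 u' hu' (by rw [Real.dist_eq]; linarith)
    rw [Real.dist_eq] at e1 e2
    have e3 : |c u' - c u| * r ≤ δ' * c₀ / 3 * r := mul_le_mul_of_nonneg_right e2.le hr.le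
    have e4 : |c u| * |u' - u| ≤ S' * d :=
      mul_le_mul (hSc u hu).1 hu''.le (abs_nonneg _) hS'0
    have e5 : S' * d ≤ δ' * (c₀ * r) / 3 := by
      have : d * (3 * (S' + 1)) = 3 * (S' * d) + 3 * d := by ring
      linarith
    have e6 : δ' * c₀ / 3 * r = δ' * (c₀ * r) / 3 := by ring
    linarith
  refine ⟨d, hd0, fun c₂ hc₂ Λ₂ => ?_⟩
  set c₁ : ℝ := min c₂ (1 / 2) with hc₁
  have hc₁0 : 0 < c₁ := by positivity
  set Λ₁ : ℝ := |Λ₂| with hΛ₁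
  have hΛ₁0 : 0 ≤ Λ₁ := abs_nonneg _
  set ε₁ : ℝ := min (1 / 4) (δ' * c₁ / 8) with hε₁
  have hε₁0 : 0 < ε₁ := by positivity
  have hε₁4 : ε₁ ≤ 1 / 4 := min_le_left _ _
  have hε₁8 : 8 * ε₁ ≤ δ' * c₁ := by
    have : ε₁ ≤ δ' * c₁ / 8 := min_le_right _ _
    linarith
  obtain ⟨ρ₁, hρ₁, hCmp₁⟩ := hU.cmp c₁ hc₁0 ε₁ hε₁0
  set r₀ : ℝ := min (min ρ₁ (r / 2)) (min (c₁ * (r / 2) / 8)
    (r / 4 / (Λ₁ + S' + S' + 1 + T + 4 * δ'))) with hr₀
  have hr₀0 : 0 < r₀ := by positivity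
  refine ⟨r₀, hr₀0, fun u' hu' hu'' y' hy' r' hr' hr'r₀ => ?_⟩
  have g1 : r' < ρ₁ := hr'r₀.trans_le ((min_le_left _ _).trans (min_le_left _ _))
  have g2 : r' < r / 2 := hr'r₀.trans_le ((min_le_left _ _).trans (min_le_right _ _))
  have g3 : r' < c₁ * (r / 2) / 8 := hr'r₀.trans_le ((min_le_right _ _).trans (min_le_left _ _))
  have g4 : (Λ₁ + S' + S' + 1 + T + 4 * δ') * r' ≤ r / 4 := by
    have : r' < r / 4 / (Λ₁ + S' + S' + 1 + T + 4 * δ') :=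
      hr'r₀.trans_le ((min_le_right _ _).trans (min_le_right _ _))
    rw [lt_div_iff₀ (by positivity)] at this
    linarith
  have hcu := (hSc u' hu').1
  have hku := (hSc u' hu').2
  set s₁ : ℝ := s - 4 * δ' - k u' with hs₁
  have hs₁T : |s₁| ≤ T := by
    have e1 : |s - 4 * δ' - k u'| ≤ |s - 4 * δ'| + |k u'| := abs_sub _ _
    have e2 : |s - 4 * δ'| ≤ |s| + |4 * δ'| := abs_sub _ _
    rw [abs_of_pos (by positivity : 0 < 4 * δ')] at e2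
    rw [hs₁, hT]
    linarith
  have hw := hlab u' hu' hu''
  have e1 : s - δ' = k u' + s₁ + 3 * δ' := by rw [hs₁]; ring
  rw [e1] at hw
  have hres := prop2 hM (hCmp u' hu') (hCmp₁ u' hu') (s₁ := s₁) (δ := δ') (Λ₁ := Λ₁) hbm hδ'0
    (by positivity) (by linarith) hε0.le hε8
    ((mul_le_mul_of_nonneg_right hs₁T (by positivity)).trans hcT)
    (by linarith) (by positivity : 0 < r / 2) (by linarith) ?_ hw hc₁0 hε₁0.le hε₁8
    (y' := y') (r' := r') (by linarith) hr' g1 g2 (by linarith) ?_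
  · refine Subset.trans ?_ hres
    refine win_mono (min_le_left _ _) (le_abs_self _) ?_ hr' hc₂
    rw [hs₁]
    have : δ = 8 * δ' := by rw [hδ']; ring
    linarith
  · have e2 : (|s₁| + 2 * δ') * (r / 2) ≤ (T + 2 * δ') * (r / 2) :=
      mul_le_mul_of_nonneg_right (by linarith) (by positivity)
    have e3 : (T + 2 * δ') * (r / 2) ≤ (T + 2 * δ') * r := by
      have : 0 < (T + 2 * δ') * r := by positivity
      linarith
    linarith
  · refine le_trans (mul_le_mul_of_nonneg_right ?_ hr'.le) g4 |>.trans (by linarith)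
    linarith

end Vale.Agent.P097.H929
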