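import Vale.Agent.P097.H929.Thin3

/-! # P097 / row (BLOW): the blown up domains at the thin layer -/

set_option linter.all false

open scoped ComplexConjugate Topology
open Filter Metric Set Complex

namespace Vale.Agent.P097.H929

open Vale.Agent.P097.H85

/-- the blown up cone of slope `s` -/
def Gc (c s : ℝ) : Set (ℂ × ℂ) := {p | 0 < p.2.im ∧ p.1.im < c * p.2.re + s * p.2.im}

/-- the actual point -/
noncomputable def bpt (R : ℝ) (y u r : ℝ) (p : ℂ × ℂ) : ℂ × ℂ :=
  ((y : ℂ) + (R : ℂ) * I + r * p.1, (u : ℂ) + r * p.2)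

theorem bpt_re1 (R y u r : ℝ) (p : ℂ × ℂ) : (bpt R y u r p).1.re = y + r * p.1.re := by
  simp [bpt]

theorem bpt_im1 (R y u r : ℝ) (p : ℂ × ℂ) : (bpt R y u r p).1.im = R + r * p.1.im := by
  simp [bpt]

theorem bpt_re2 (R y u r : ℝ) (p : ℂ × ℂ) : (bpt R y u r p).2.re = u + r * p.2.re := by
  simp [bpt]

theorem bpt_im2 (R y u r : ℝ) (p : ℂ × ℂ) : (bpt R y u r p).2.im = r * p.2.im := by
  simp [bpt]

/-- **Blown up domain.** -/
theorem blow_dom {M : Set (ℂ × ℂ)} {b : ℝ} {A : Set ℝ} {P : ℝ → ℂ} {c : ℝ → ℝ} {y₀ u₀ s : ℝ}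
    (hu₀ : u₀ ∈ A) (hR : ContinuousOn (fun u => (P u).im) A) (hc : ContinuousOn c A)
    (hb : b < (P u₀).im) (hreg : ∀ δ > 0, RegB M b A P c y₀ u₀ (s - δ)) {K : Set (ℂ × ℂ)}
    (hK : IsCompact K) (hKG : K ⊆ Gc (c u₀) s) :
    ∃ d > 0, ∃ r₀ > 0, ∀ u ∈ A, |u - u₀| < d → ∀ y : ℝ, |y - y₀| < d → ∀ r : ℝ, 0 < r → r < r₀ →
      ∀ p ∈ K, bpt (P u).im y u r p ∈ M := by
  rcases K.eq_empty_or_nonempty with hKe | hKne
  · exact ⟨1, one_pos, 1, one_pos, fun _ _ _ _ _ _ _ _ p hp => by simp [hKe] at hp⟩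
  -- constants
  obtain ⟨B₀, hB₀⟩ := hK.isBounded.exists_norm_le
  set B : ℝ := max 1 B₀ with hB
  have hB1 : 1 ≤ B := le_max_left _ _
  have hB0 : 0 < B := by linarith
  have hn1 : ∀ p ∈ K, ‖p.1‖ ≤ B ∧ ‖p.2‖ ≤ B := by
    intro p hp
    have h1 := (hB₀ p hp).trans (le_max_right 1 B₀)
    rw [Prod.norm_def] at h1
    exact ⟨(le_max_left _ _).trans h1, (le_max_right _ _).trans h1⟩
  have hcont1 : Continuous fun p : ℂ × ℂ => p.2.im := by fun_prop
  have hcont2 : Continuous fun p : ℂ × ℂ => c u₀ * p.2.re + s * p.2.im - p.1.im := by fun_prop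
  obtain ⟨p₁, hp₁, hmin₁⟩ := hK.exists_isMinOn hKne hcont1.continuousOn
  obtain ⟨p₂, hp₂, hmin₂⟩ := hK.exists_isMinOn hKne hcont2.continuousOn
  set a : ℝ := p₁.2.im with ha
  have ha0 : 0 < a := (hKG hp₁).1
  set a' : ℝ := c u₀ * p₂.2.re + s * p₂.2.im - p₂.1.im with ha'
  have ha'0 : 0 < a' := by
    have := (hKG hp₂).2
    rw [ha']; linarith
  have hm1 : ∀ p ∈ K, a ≤ p.2.im := fun p hp => hmin₁ hp
  have hm2 : ∀ p ∈ K, a' ≤ c u₀ * p.2.re + s * p.2.im - p.1.im := fun p hp => hmin₂ hp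
  set δ : ℝ := a' / (4 * B) with hδ
  have hδ0 : 0 < δ := by positivity
  have hδB : δ * B = a' / 4 := by rw [hδ]; field_simp
  obtain ⟨d₁, hd₁, hrg⟩ := hreg δ hδ0
  obtain ⟨r₁, hr₁, hrg⟩ := hrg (a / B) (by positivity) 1
  obtain ⟨d₂, hd₂, hc2⟩ := Metric.continuousOn_iff.1 hc u₀ hu₀ (a' / (4 * B)) (by positivity)
  obtain ⟨d₃, hd₃, hR2⟩ := Metric.continuousOn_iff.1 hR u₀ hu₀ (((P u₀).im - b) / 2)
    (by linarith)
  have hPb : 0 < (P u₀).im - b := by linarith
  refine ⟨min d₁ (min d₂ d₃), by positivity, min (r₁ / B) (((P u₀).im - b) / (2 * B)),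
    by positivity, ?_⟩
  intro u hu hud y hyd r hr hrr p hp
  have k1 := hud.trans_le (min_le_left _ _)
  have k2 := hud.trans_le ((min_le_right _ _).trans (min_le_left _ _))
  have k3 := hud.trans_le ((min_le_right _ _).trans (min_le_right _ _))
  have k4 := hyd.trans_le (min_le_left _ _)
  have k5 : B * r < r₁ := by
    have := hrr.trans_le (min_le_left _ _)
    rw [lt_div_iff₀ hB0] at this
    linarith
  have k6 : B * r < ((P u₀).im - b) / 2 := by
    have := hrr.trans_le (min_le_right _ _)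
    rw [lt_div_iff₀ (by positivity)] at this
    linarith
  have hc3 := hc2 u hu (by rw [Real.dist_eq]; exact k2)
  have hR3 := hR2 u hu (by rw [Real.dist_eq]; exact k3)
  rw [Real.dist_eq] at hc3 hR3
  obtain ⟨n1, n2⟩ := hn1 p hp
  have q1 := (Complex.abs_re_le_norm p.1).trans n1
  have q2 := (Complex.abs_im_le_norm p.1).trans n1
  have q3 := (Complex.abs_re_le_norm p.2).trans n2
  have q4 := (Complex.abs_im_le_norm p.2).trans n2
  apply hrg u hu k1 y k4 (B * r) (by positivity) k5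
  refine ⟨?_, ?_, ?_, ?_, ?_, ?_⟩
  · rw [bpt_re2]
    have : u + r * p.2.re - u = r * p.2.re := by ring
    rw [this, abs_mul, abs_of_pos hr]
    have := mul_le_mul_of_nonneg_left q3 hr.le
    linarith
  · rw [bpt_im2]
    have e1 : a / B * (B * r) = r * a := by field_simp
    rw [e1]
    exact mul_le_mul_of_nonneg_left (hm1 p hp) hr.le
  · rw [bpt_im2]
    have := mul_le_mul_of_nonneg_left ((le_abs_self _).trans q4) hr.le
    linarith
  · rw [bpt_re1]
    have : y + r * p.1.re - y = r * p.1.re := by ring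
    rw [this, abs_mul, abs_of_pos hr]
    have := mul_le_mul_of_nonneg_left q1 hr.le
    linarith
  · rw [bpt_im1]
    have e1 := (abs_lt.1 hR3).1
    have e2 : -(r * B) ≤ r * p.1.im := by
      have := mul_le_mul_of_nonneg_left (abs_le.1 q2).1 hr.le
      linarith
    linarith
  · rw [bpt_im1, bpt_re2, bpt_im2]
    have e1 := hm2 p hp
    have e2 : -(c u - c u₀) * p.2.re ≤ a' / 4 := by
      refine (le_abs_self _).trans ?_
      rw [abs_mul, abs_neg]
      have : |c u - c u₀| * |p.2.re| ≤ a' / (4 * B) * B :=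
        mul_le_mul hc3.le q3 (abs_nonneg _) (by positivity)
      have e3 : a' / (4 * B) * B = a' / 4 := by field_simp
      linarith
    have e3 : δ * p.2.im ≤ a' / 4 := by
      rw [← hδB]
      exact mul_le_mul_of_nonneg_left ((le_abs_self _).trans q4) hδ0.le
    have e4 : p.1.im ≤ c u * p.2.re + (s - δ) * p.2.im := by
      have e5 : c u * p.2.re + (s - δ) * p.2.im = c u₀ * p.2.re + s * p.2.im -
        (-(c u - c u₀) * p.2.re) - δ * p.2.im := by ring
      rw [e5]; linarith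
    have e5 := mul_le_mul_of_nonneg_left e4 hr.le
    have e6 : (P u).im + c u * (u + r * p.2.re - u) + (s - δ) * (r * p.2.im) =
      (P u).im + r * (c u * p.2.re + (s - δ) * p.2.im) := by ring
    rw [e6]; linarith

/-- what `thin` gives -/
def Tch (M : Set (ℂ × ℂ)) (b : ℝ) (A : Set ℝ) (P : ℝ → ℂ) (c : ℝ → ℝ) (y₀ u₀ σ : ℝ) : Prop :=
  ∀ η : ℝ, 0 < η → η ≤ 1 → ∃ d > 0, ∃ r₀ > 0, ∀ u ∈ A, |u - u₀| < d → ∀ yc : ℝ,
    |yc - y₀| < d → ∀ h : ℝ, 0 < h → h < r₀ → ∀ x₀ : ℝ, |x₀ - u| ≤ h / 2 →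
    ∃ t w : ℂ, w.im = h ∧ |w.re - x₀| < η * h ∧
      |t.re - (yc - c u * h + σ * (w.re - u))| < η * h ∧ b < t.im ∧
      t.im < (P u).im + c u * (w.re - u) + σ * h + η * h ∧ (t, w) ∉ M

/-- **Blown up touch.** -/
theorem blow_touch {M : Set (ℂ × ℂ)} {b : ℝ} {A : Set ℝ} {P : ℝ → ℂ} {c : ℝ → ℝ} {y₀ u₀ σ : ℝ}
    (hM : Dn b M) (hu₀ : u₀ ∈ A) (hR : ContinuousOn (fun u => (P u).im) A)
    (hc : ContinuousOn c A) (hb : b < (P u₀).im)
    (hreg : ∀ δ > 0, RegB M b A P c y₀ u₀ (σ - δ)) (ht : Tch M b A P c y₀ u₀ σ)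
    {z : ℂ × ℂ} (hz : 0 < z.2.im) (hz' : |z.2.re| ≤ z.2.im / 2)
    (hze : z.1.im = c u₀ * z.2.re + σ * z.2.im) {ε : ℝ} (hε : 0 < ε) :
    ∃ d > 0, ∃ r₀ > 0, ∀ u ∈ A, |u - u₀| < d → ∀ y : ℝ, |y - y₀| < d → ∀ r : ℝ, 0 < r → r < r₀ →
      ∃ p : ℂ × ℂ, ‖p.1 - z.1‖ < ε ∧ ‖p.2 - z.2‖ < ε ∧ bpt (P u).im y u r p ∉ M := by
  set H : ℝ := z.2.im with hH
  set C : ℝ := 1 + |c u₀| + |σ| with hC
  have hC1 : 1 ≤ C := by
    have := abs_nonneg (c u₀)
    have := abs_nonneg σ
    rw [hC]; linarith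
  -- η
  set ε' : ℝ := min (ε / 8) (1 / 2) with hε'
  have hε'0 : 0 < ε' := by positivity
  have hε'8 : ε' ≤ ε / 8 := min_le_left _ _
  set η : ℝ := min (1 / 2) (ε' / ((4 * C + 4) * H)) with hη
  have hη0 : 0 < η := by positivity
  have hη2 : η ≤ 1 / 2 := min_le_left _ _
  have hη1 : η ≤ 1 := by linarith
  have hηH : (4 * C + 4) * (η * H) ≤ ε' := by
    have h1 : η ≤ ε' / ((4 * C + 4) * H) := min_le_right _ _
    rw [le_div_iff₀ (by positivity)] at h1
    linarith
  have hηHp : 0 < η * H := by positivity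
  have hηHs : η * H ≤ ε' / 4 := by
    have : 0 < C * (η * H) := by positivity
    nlinarith
  obtain ⟨d₁, hd₁, r₁, hr₁, htt⟩ := ht η hη0 hη1
  -- the compact set just below the edge
  set K : Set (ℂ × ℂ) := (closedBall z.1 ε ×ˢ closedBall z.2 (η * H)) ∩
    {p : ℂ × ℂ | p.2.im = H ∧ p.1.im ≤ c u₀ * p.2.re + σ * p.2.im - ε'} with hKdef
  have hKc : IsCompact K := by
    have h1 : IsCompact (closedBall z.1 ε ×ˢ closedBall z.2 (η * H)) :=
      (isCompact_closedBall _ _).prod (isCompact_closedBall _ _)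
    have h2 : IsClosed {p : ℂ × ℂ | p.2.im = H ∧ p.1.im ≤ c u₀ * p.2.re + σ * p.2.im - ε'} := by
      have c1 : Continuous fun p : ℂ × ℂ => p.2.im := by fun_prop
      have c2 : Continuous fun p : ℂ × ℂ => p.1.im := by fun_prop
      have c3 : Continuous fun p : ℂ × ℂ => c u₀ * p.2.re + σ * p.2.im - ε' := by fun_prop
      exact (isClosed_eq c1 continuous_const).inter (isClosed_le c2 c3)
    exact h1.inter_right h2
  have hKG : K ⊆ Gc (c u₀) σ := by
    rintro p ⟨-, h5, h6⟩
    exact ⟨by rw [h5]; exact hz, by linarith⟩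
  obtain ⟨d₂, hd₂, r₂, hr₂, hdom⟩ := blow_dom hu₀ hR hc hb hreg hKc hKG
  obtain ⟨d₃, hd₃, hc2⟩ := Metric.continuousOn_iff.1 hc u₀ hu₀ (ε' / (8 * H)) (by positivity)
  set D : ℝ := |z.1.re| + (|c u₀| + 1 + |σ|) * H + ε with hD
  have hD0 : 0 < D := by positivity
  set T : ℝ := 1 / (8 * H) with hT
  refine ⟨min (d₁ / 2) (min d₂ d₃), by positivity,
    min (min (r₁ / H) r₂) (d₁ / (2 * D)), by positivity, ?_⟩
  intro u hu hud y hyd r hr hrr
  have k1 := hud.trans_le (min_le_left _ _)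
  have k2 := hud.trans_le ((min_le_right _ _).trans (min_le_left _ _))
  have k3 := hud.trans_le ((min_le_right _ _).trans (min_le_right _ _))
  have k4 := hyd.trans_le (min_le_left _ _)
  have k4' := hyd.trans_le ((min_le_right _ _).trans (min_le_left _ _))
  have k5 : r * H < r₁ := by
    have := hrr.trans_le ((min_le_left _ _).trans (min_le_left _ _))
    rwa [lt_div_iff₀ hz] at this
  have k6 := hrr.trans_le ((min_le_left _ _).trans (min_le_right _ _))
  have k7 : r * D < d₁ / 2 := by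
    have := hrr.trans_le (min_le_right _ _)
    rw [lt_div_iff₀ (by positivity)] at this
    linarith
  have hc3 := hc2 u hu (by rw [Real.dist_eq]; exact k3)
  rw [Real.dist_eq] at hc3
  have hcH : |c u - c u₀| * H ≤ ε' / 8 := by
    have := mul_le_mul_of_nonneg_right hc3.le hz.le
    have e : ε' / (8 * H) * H = ε' / 8 := by field_simp
    linarith
  -- centre
  set yc : ℝ := y + r * (z.1.re + c u * H - σ * z.2.re) with hyc
  have hcu : |c u| ≤ |c u₀| + |c u - c u₀| := by
    have := abs_add_le (c u₀) (c u - c u₀)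
    have e : c u₀ + (c u - c u₀) = c u := by ring
    rwa [e] at this
  have hcuH : |c u| * H ≤ |c u₀| * H + ε' / 8 := by
    have := mul_le_mul_of_nonneg_right hcu hz.le
    have e : (|c u₀| + |c u - c u₀|) * H = |c u₀| * H + |c u - c u₀| * H := by ring
    linarith
  have hycd : |yc - y₀| < d₁ := by
    have e1 : yc - y₀ = (y - y₀) + r * (z.1.re + c u * H - σ * z.2.re) := by rw [hyc]; ring
    rw [e1]
    have e2 := abs_add_le (y - y₀) (r * (z.1.re + c u * H - σ * z.2.re))
    have e3 : |r * (z.1.re + c u * H - σ * z.2.re)| ≤ r * D := by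
      rw [abs_mul, abs_of_pos hr]
      apply mul_le_mul_of_nonneg_left _ hr.le
      have f1 := abs_sub (z.1.re + c u * H) (σ * z.2.re)
      have f2 := abs_add_le z.1.re (c u * H)
      have f3 : |c u * H| = |c u| * H := by rw [abs_mul, abs_of_pos hz]
      have f4 : |σ * z.2.re| ≤ |σ| * H := by
        rw [abs_mul]
        exact mul_le_mul_of_nonneg_left (by linarith) (abs_nonneg _)
      have f5 : (|c u₀| + 1 + |σ|) * H = |c u₀| * H + H + |σ| * H := by ring
      rw [hD, f5]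
      linarith
    linarith
  obtain ⟨t, w, g1, g2, g3, g4, g5, g6⟩ := htt u hu (by linarith) yc hycd (r * H) (by positivity)
    k5 (u + r * z.2.re) (by
      have : u + r * z.2.re - u = r * z.2.re := by ring
      rw [this, abs_mul, abs_of_pos hr]
      have := mul_le_mul_of_nonneg_left hz' hr.le
      linarith)
  -- the rescaled point
  set p : ℂ × ℂ := ((t - y - ((P u).im : ℂ) * I) / r, (w - u) / r) with hp
  have hrc : (r : ℂ) ≠ 0 := by exact_mod_cast hr.ne'
  have hbp : bpt (P u).im y u r p = (t, w) := by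
    unfold bpt
    rw [hp]
    ext
    · simp only
      field_simp
      ring
    · simp only
      field_simp
      ring
  have b1 := bpt_re1 (P u).im y u r p
  have b2 := bpt_im1 (P u).im y u r p
  have b3 := bpt_re2 (P u).im y u r p
  have b4 := bpt_im2 (P u).im y u r p
  rw [hbp] at b1 b2 b3 b4
  simp only at b1 b2 b3 b4
  have p2i : p.2.im = H := by
    have : r * p.2.im = r * H := by rw [← b4, g1]
    exact mul_left_cancel₀ hr.ne' this
  have p2r : |p.2.re - z.2.re| ≤ η * H := by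
    have e1 : w.re - (u + r * z.2.re) = r * (p.2.re - z.2.re) := by rw [b3]; ring
    rw [e1, abs_mul, abs_of_pos hr] at g2
    have e2 : η * (r * H) = r * (η * H) := by ring
    rw [e2] at g2
    exact (lt_of_mul_lt_mul_left g2 hr.le).le
  have hσC : |σ| * (η * H) ≤ C * (η * H) := by
    apply mul_le_mul_of_nonneg_right _ hηHp.le
    have := abs_nonneg (c u₀)
    rw [hC]; linarith
  have hcC : |c u₀| * (η * H) ≤ C * (η * H) := by
    apply mul_le_mul_of_nonneg_right _ hηHp.le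
    have := abs_nonneg σ
    rw [hC]; linarith
  have hCη : 4 * (C * (η * H)) ≤ ε' := by linarith
  have p1r : |p.1.re - z.1.re| ≤ ε' / 2 := by
    have e1 : t.re - (yc - c u * (r * H) + σ * (w.re - u)) =
        r * ((p.1.re - z.1.re) - σ * (p.2.re - z.2.re)) := by
      rw [b1, b3, hyc]; ring
    rw [e1, abs_mul, abs_of_pos hr] at g3
    have e2 : η * (r * H) = r * (η * H) := by ring
    rw [e2] at g3
    have e3 := (lt_of_mul_lt_mul_left g3 hr.le).le
    have e4 := abs_add_le ((p.1.re - z.1.re) - σ * (p.2.re - z.2.re)) (σ * (p.2.re - z.2.re))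
    have e5 : (p.1.re - z.1.re) - σ * (p.2.re - z.2.re) + σ * (p.2.re - z.2.re) =
      p.1.re - z.1.re := by ring
    rw [e5] at e4
    have e6 : |σ * (p.2.re - z.2.re)| ≤ |σ| * (η * H) := by
      rw [abs_mul]
      exact mul_le_mul_of_nonneg_left p2r (abs_nonneg _)
    linarith
  have hc0r : |c u₀ * (p.2.re - z.2.re)| ≤ ε' / 4 := by
    rw [abs_mul]
    have := mul_le_mul_of_nonneg_left p2r (abs_nonneg (c u₀))
    linarith
  have pup : p.1.im < z.1.im + ε' := by
    have e1 : (P u).im + c u * (w.re - u) + σ * (r * H) + η * (r * H) =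
      (P u).im + r * (c u * p.2.re + σ * H + η * H) := by rw [b3]; ring
    rw [b2, e1] at g5
    have e2 : r * p.1.im < r * (c u * p.2.re + σ * H + η * H) := by linarith
    have e3 := lt_of_mul_lt_mul_left e2 hr.le
    have e4 : c u * p.2.re = c u₀ * z.2.re + c u₀ * (p.2.re - z.2.re) +
      (c u - c u₀) * p.2.re := by ring
    have e5 : |p.2.re| ≤ H := by
      have := abs_add_le (p.2.re - z.2.re) z.2.re
      have e : p.2.re - z.2.re + z.2.re = p.2.re := by ring
      rw [e] at this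
      have f1 : η * H ≤ ε' / 4 := hηHs
      have f2 : η * H ≤ H / 2 := by
        have := mul_le_mul_of_nonneg_right hη2 hz.le
        linarith
      linarith
    have e6 : (c u - c u₀) * p.2.re ≤ ε' / 8 := by
      refine (le_abs_self _).trans ?_
      rw [abs_mul]
      exact (mul_le_mul_of_nonneg_left e5 (abs_nonneg _)).trans hcH
    have e7 := (abs_le.1 hc0r).2
    rw [hze]
    linarith
  have plow : c u₀ * p.2.re + σ * H - ε' < p.1.im := by
    by_contra hcon
    push Not at hcon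
    set v : ℝ := c u₀ * p.2.re + σ * H - ε' with hv
    have hvz : v - z.1.im = c u₀ * (p.2.re - z.2.re) - ε' := by rw [hv, hze]; ring
    have hK' : (((p.1.re : ℝ) : ℂ) + (v : ℂ) * I, p.2) ∈ K := by
      refine ⟨⟨?_, ?_⟩, p2i, ?_⟩
      · rw [mem_closedBall, dist_eq_norm]
        refine (Complex.norm_le_abs_re_add_abs_im _).trans ?_
        have f1 : ((((p.1.re : ℝ) : ℂ) + (v : ℂ) * I) - z.1).re = p.1.re - z.1.re := by simp
        have f2 : ((((p.1.re : ℝ) : ℂ) + (v : ℂ) * I) - z.1).im = v - z.1.im := by simp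
        simp only
        rw [f1, f2, hvz]
        have f3 := abs_sub (c u₀ * (p.2.re - z.2.re)) ε'
        rw [abs_of_pos hε'0] at f3
        linarith
      · rw [mem_closedBall, dist_eq_norm]
        refine (Complex.norm_le_abs_re_add_abs_im _).trans ?_
        simp only
        rw [sub_re, sub_im, p2i, ← hH, sub_self, abs_zero, add_zero]
        exact p2r
      · simp only
        rw [p2i, hv]
        simp
    have hin := hdom u hu k2 y k4' r hr k6 _ hK'
    have e1 : bpt (P u).im y u r (((p.1.re : ℝ) : ℂ) + (v : ℂ) * I, p.2) =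
        ((t.re : ℂ) + (((P u).im + r * v : ℝ) : ℂ) * I, w) := by
      rw [Prod.ext_iff]
      constructor
      · apply Complex.ext
        · rw [bpt_re1, b1]; simp
        · rw [bpt_im1]; simp
      · have : (bpt (P u).im y u r (((p.1.re : ℝ) : ℂ) + (v : ℂ) * I, p.2)).2 =
          (bpt (P u).im y u r p).2 := rfl
        rw [this, hbp]
    rw [e1] at hin
    have hd := hM.down _ _ t.im hin g4 (by
      simp only [add_im, ofReal_im, mul_im, ofReal_re, I_im, mul_one, I_re, mul_zero, add_zero,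
        zero_add]
      rw [b2]
      have := mul_le_mul_of_nonneg_left hcon hr.le
      linarith)
    apply g6
    have e2 : (((((t.re : ℂ) + (((P u).im + r * v : ℝ) : ℂ) * I)).re : ℂ) + t.im * I) = t := by
      apply Complex.ext
      · simp
      · simp
    rwa [e2] at hd
  refine ⟨p, ?_, ?_, by rw [hbp]; exact g6⟩
  · refine (Complex.norm_le_abs_re_add_abs_im _).trans_lt ?_
    rw [sub_re, sub_im]
    have e1 : |p.1.im - z.1.im| ≤ 2 * ε' := by
      rw [abs_le]
      constructor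
      · have e2 := (abs_le.1 hc0r).1
        have e3 : c u₀ * p.2.re + σ * H = z.1.im + c u₀ * (p.2.re - z.2.re) := by
          rw [hze]; ring
        linarith
      · linarith
    linarith
  · refine (Complex.norm_le_abs_re_add_abs_im _).trans_lt ?_
    rw [sub_re, sub_im, p2i, ← hH, sub_self, abs_zero, add_zero]
    linarith

end Vale.Agent.P097.H929
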