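import Vale.Agent.P097.H929.World
import Vale.Agent.P097.H877.Bd.End4

/-! # P097 / row (BR-TOUCH): from points outside `Mj` to the absence of an analytic extension of the position -/

set_option linter.all false

open scoped ComplexConjugate Topology
open Filter Metric Set Complex

namespace Vale.Agent.P097.H929

open Vale.Agent.P097.H85 Vale.Agent.P097.TA Vale.Agent.P097.H543

/-- inverse of `kpt` -/
noncomputable def kinv (R c σ y u r : ℝ) (z : ℂ × ℂ) : ℂ × ℂ :=
  ((z.1 - y - R * I) / r - (I * c + σ) * ((z.2 - u) / r), (z.2 - u) / r)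

theorem kinv_kpt {R c σ y u r : ℝ} (hr : 0 < r) (p : ℂ × ℂ) :
    kinv R c σ y u r (kpt R c σ y u r p) = p := by
  have hrc : (r : ℂ) ≠ 0 := by exact_mod_cast hr.ne'
  rw [kpt_eq]
  unfold kinv
  ext
  · simp only
    field_simp
    ring
  · simp only
    field_simp
    ring

theorem kpt_kinv {R c σ y u r : ℝ} (hr : 0 < r) (z : ℂ × ℂ) :
    kpt R c σ y u r (kinv R c σ y u r z) = z := by
  have hrc : (r : ℂ) ≠ 0 := by exact_mod_cast hr.ne'
  rw [kpt_eq]
  unfold kinv
  ext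
  · simp only
    field_simp
    ring
  · simp only
    field_simp
    ring

theorem kinv_diff (R c σ y u r : ℝ) : Differentiable ℂ (kinv R c σ y u r) := by
  unfold kinv
  fun_prop

theorem kpt_im1 (R c σ y u r : ℝ) (p : ℂ × ℂ) :
    (kpt R c σ y u r p).1.im = R + r * (p.1.im + c * p.2.re + σ * p.2.im) := by
  unfold kpt
  rw [bpt_im1, lsh_im]

/-- vertical translates -/
theorem kinv_vert {R c σ y u r : ℝ} (hr : 0 < r) (t w : ℂ) (τ : ℝ) :
    (kinv R c σ y u r ((t.re : ℂ) + τ * I, w)).1.re = (kinv R c σ y u r (t, w)).1.re ∧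
    (kinv R c σ y u r ((t.re : ℂ) + τ * I, w)).1.im =
      (kinv R c σ y u r (t, w)).1.im - (t.im - τ) / r ∧
    (kinv R c σ y u r ((t.re : ℂ) + τ * I, w)).2 = (kinv R c σ y u r (t, w)).2 := by
  have hrc : (r : ℂ) ≠ 0 := by exact_mod_cast hr.ne'
  have h1 : (kinv R c σ y u r ((t.re : ℂ) + τ * I, w)).1 =
      (kinv R c σ y u r (t, w)).1 - (((t.im - τ) / r : ℝ) : ℂ) * I := by
    have ht : (t.re : ℂ) + τ * I = t - ((t.im - τ : ℝ) : ℂ) * I := by
      apply Complex.ext <;> simp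
    unfold kinv
    simp only
    rw [ht]
    push_cast
    field_simp
    ring
  refine ⟨?_, ?_, rfl⟩
  · rw [h1]; simp
  · rw [h1]; simp

/-- **The bridge, at one scale.** -/
theorem bridge {b : ℝ} {f : ℂ → ℂ → ℂ} {B : Set (ℂ × ℂ)} (hB : Dn b B) (hf : JD f B) {H : ℝ}
    {Mk D : Set (ℂ × ℂ)} {Φ : ℂ × (ℂ × ℂ) → ℂ}
    (hΦ : DifferentiableOn ℂ Φ {q | |q.1.im| < H ∧ q.2 ∈ Mk}) {θ : ℂ × ℂ → ℂ}
    (hrel : ∀ z ∈ D, gx b f B z.1 z.2 = Φ (θ z, z)) {R c σ y u r : ℝ} (hr : 0 < r) {a : ℝ}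
    {w₀ : ℂ} {δ ε η : ℝ} (hδ : 0 < δ) (hε : ε ≤ δ / 16)
    (hk : ∀ p : ℂ × ℂ, ‖p.1 - a‖ < δ → ‖p.2 - w₀‖ < δ → kpt R c σ y u r p ∈ Mk)
    (hlow : ∀ p : ℂ × ℂ, |p.1.re - a| < δ / 2 → -(δ / 2) < p.1.im → p.1.im < -(δ / 16) →
      ‖p.2 - w₀‖ < δ / 2 → kpt R c σ y u r p ∈ D ∧ kpt R c σ y u r p ∈ Mx b f B)
    {g : ℂ × ℂ → ℂ} (hg : DifferentiableOn ℂ g {p | ‖p.1 - a‖ < δ ∧ ‖p.2 - w₀‖ < δ})
    (hgH : ∀ p : ℂ × ℂ, ‖p.1 - a‖ < δ → ‖p.2 - w₀‖ < δ → |(g p).im| < H)
    (hgθ : ∀ p : ℂ × ℂ, ‖p.1 - a‖ < δ → ‖p.2 - w₀‖ < δ → p.1.im ≤ -ε →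
      g p = θ (kpt R c σ y u r p))
    (hb : b ≤ R + r * (-(δ / 4) + c * w₀.re + σ * w₀.im)) (hη : 0 < η)
    (hη1 : (1 + |c| + |σ|) * η ≤ δ / 16) :
    ∀ p : ℂ × ℂ, ‖p.1 - a‖ < η → ‖p.2 - w₀‖ < η → kpt R c σ y u r p ∈ Mx b f B := by
  set s₀ : ℝ := R + r * (-(δ / 4) + c * w₀.re + σ * w₀.im) with hs₀
  have hc0 := abs_nonneg c
  have hσ0 := abs_nonneg σ
  have hexp : (1 + |c| + |σ|) * η = η + |c| * η + |σ| * η := by ring
  have hcη : 0 ≤ |c| * η := by positivity
  have hση : 0 ≤ |σ| * η := by positivity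
  have hηδ : η ≤ δ / 16 := by linarith
  -- the shear is small
  have hsh : ∀ w : ℂ, ‖w - w₀‖ < η →
      |c * w.re + σ * w.im - (c * w₀.re + σ * w₀.im)| ≤ δ / 16 - η := by
    intro w hw
    have e1 : c * w.re + σ * w.im - (c * w₀.re + σ * w₀.im) =
      c * (w - w₀).re + σ * (w - w₀).im := by
      simp only [sub_re, sub_im]; ring
    rw [e1]
    have e2 := abs_add_le (c * (w - w₀).re) (σ * (w - w₀).im)
    rw [abs_mul, abs_mul] at e2
    have e3 : |c| * |(w - w₀).re| ≤ |c| * η :=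
      mul_le_mul_of_nonneg_left ((Complex.abs_re_le_norm _).trans hw.le) hc0
    have e4 : |σ| * |(w - w₀).im| ≤ |σ| * η :=
      mul_le_mul_of_nonneg_left ((Complex.abs_im_le_norm _).trans hw.le) hσ0
    linarith
  set N : Set (ℂ × ℂ) := {z | |(kinv R c σ y u r z).1.re - a| < δ / 2 ∧
    (kinv R c σ y u r z).1.im < δ / 2 ∧ ‖(kinv R c σ y u r z).2 - w₀‖ < η ∧ s₀ < z.1.im} with hN
  have hkc : Continuous (kinv R c σ y u r) := (kinv_diff R c σ y u r).continuous
  have hNo : IsOpen N := by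
    have a1 : IsOpen {z : ℂ × ℂ | |(kinv R c σ y u r z).1.re - a| < δ / 2} :=
      isOpen_lt ((Complex.continuous_re.comp (continuous_fst.comp hkc)).sub
        continuous_const).abs continuous_const
    have a2 : IsOpen {z : ℂ × ℂ | (kinv R c σ y u r z).1.im < δ / 2} :=
      isOpen_lt (Complex.continuous_im.comp (continuous_fst.comp hkc)) continuous_const
    have a3 : IsOpen {z : ℂ × ℂ | ‖(kinv R c σ y u r z).2 - w₀‖ < η} :=
      isOpen_lt ((continuous_snd.comp hkc).sub continuous_const).norm continuous_const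
    have a4 : IsOpen {z : ℂ × ℂ | s₀ < z.1.im} :=
      isOpen_lt continuous_const (Complex.continuous_im.comp continuous_fst)
    exact a1.inter (a2.inter (a3.inter a4))
  -- height in terms of the coordinates
  have hht : ∀ z : ℂ × ℂ, z.1.im = R + r * ((kinv R c σ y u r z).1.im +
      c * (kinv R c σ y u r z).2.re + σ * (kinv R c σ y u r z).2.im) := by
    intro z
    rw [← kpt_im1, kpt_kinv hr]
  have hNlow : ∀ z ∈ N, -(3 * δ / 8) < (kinv R c σ y u r z).1.im := by
    rintro z ⟨h1, h2, h3, h4⟩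
    rw [hht z, hs₀] at h4
    have e1 := (abs_le.1 (hsh _ h3)).2
    have e2 : r * (-(δ / 4) + c * w₀.re + σ * w₀.im) < r * ((kinv R c σ y u r z).1.im +
      c * (kinv R c σ y u r z).2.re + σ * (kinv R c σ y u r z).2.im) := by linarith
    have e3 := lt_of_mul_lt_mul_left e2 hr.le
    linarith
  have hNball : ∀ z ∈ N, ‖(kinv R c σ y u r z).1 - a‖ < δ ∧
      ‖(kinv R c σ y u r z).2 - w₀‖ < δ := by
    intro z hz
    have h0 := hNlow z hz
    obtain ⟨h1, h2, h3, h4⟩ := hz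
    constructor
    · refine (Complex.norm_le_abs_re_add_abs_im _).trans_lt ?_
      rw [sub_re, sub_im, ofReal_re, ofReal_im, sub_zero]
      have : |(kinv R c σ y u r z).1.im| < δ / 2 := abs_lt.2 ⟨by linarith, h2⟩
      linarith
    · linarith
  have hNk : ∀ z ∈ N, z ∈ Mk := by
    intro z hz
    obtain ⟨h1, h2⟩ := hNball z hz
    have := hk _ h1 h2
    rwa [kpt_kinv hr] at this
  have dh : JD (fun t w => Φ (g (kinv R c σ y u r (t, w)), (t, w))) N := by
    have d1 : DifferentiableOn ℂ (fun z : ℂ × ℂ => (g (kinv R c σ y u r z), z)) N := by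
      have d2 : DifferentiableOn ℂ (fun z : ℂ × ℂ => g (kinv R c σ y u r z)) N :=
        hg.comp (kinv_diff R c σ y u r).differentiableOn fun z hz => hNball z hz
      exact d2.prodMk differentiableOn_id
    exact DifferentiableOn.comp hΦ d1 fun z hz =>
      ⟨hgH _ (hNball z hz).1 (hNball z hz).2, hNk z hz⟩
  have hNM : N ⊆ Mx b f B := by
    apply Vale.Agent.P097.H877.Bd.mx_add hB hf hNo
      (h := fun t w => Φ (g (kinv R c σ y u r (t, w)), (t, w))) dh (s₀ := s₀) hb
    · rintro t w ⟨-, -, -, h4⟩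
      exact h4
    · rintro t w τ ⟨h1, h2, h3, h4⟩ h5 h6
      obtain ⟨k1, k2, k3⟩ := kinv_vert (R := R) (c := c) (σ := σ) (y := y) (u := u) hr t w τ
      refine ⟨?_, ?_, ?_, ?_⟩
      · rw [k1]; exact h1
      · rw [k2]
        have : 0 ≤ (t.im - τ) / r := div_nonneg (by linarith) hr.le
        linarith
      · rw [k3]; exact h3
      · simpa using h5
    · rintro t w hz
      have h0 := hNlow _ hz
      obtain ⟨h1, h2, h3, h4⟩ := hz
      simp only at h4
      set τ : ℝ := min t.im (R + r * (-(3 * δ / 16) + c * w₀.re + σ * w₀.im)) with hτ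
      have hτ1 : s₀ < τ := by
        refine lt_min h4 ?_
        rw [hs₀]
        have : 0 < r * (δ / 16) := by positivity
        have e : r * (-(3 * δ / 16) + c * w₀.re + σ * w₀.im) =
          r * (-(δ / 4) + c * w₀.re + σ * w₀.im) + r * (δ / 16) := by ring
        linarith
      have hτ2 : τ ≤ t.im := min_le_left _ _
      obtain ⟨k1, k2, k3⟩ := kinv_vert (R := R) (c := c) (σ := σ) (y := y) (u := u) hr t w τ
      set z' : ℂ × ℂ := ((t.re : ℂ) + τ * I, w) with hz'
      have hz'N : z' ∈ N := by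
        refine ⟨?_, ?_, ?_, ?_⟩
        · rw [k1]; exact h1
        · rw [k2]
          have : 0 ≤ (t.im - τ) / r := div_nonneg (by linarith) hr.le
          linarith
        · rw [k3]; exact h3
        · simpa [hz'] using hτ1
      have hz'low := hNlow z' hz'N
      have hz'im : (kinv R c σ y u r z').1.im ≤ -(δ / 8) - η := by
        have e0 := hht z'
        have e1 : z'.1.im = τ := by simp [hz']
        have e2 : τ ≤ R + r * (-(3 * δ / 16) + c * w₀.re + σ * w₀.im) := min_le_right _ _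
        rw [e1] at e0
        have e3 := (abs_le.1 (hsh _ (by rw [k3]; exact h3 :
          ‖(kinv R c σ y u r z').2 - w₀‖ < η))).1
        have e4 : r * ((kinv R c σ y u r z').1.im + c * (kinv R c σ y u r z').2.re +
          σ * (kinv R c σ y u r z').2.im) ≤ r * (-(3 * δ / 16) + c * w₀.re + σ * w₀.im) := by
          linarith
        have e5 := le_of_mul_le_mul_left e4 hr
        linarith
      have hlowN : ∀ z ∈ N, (kinv R c σ y u r z).1.im < -(δ / 16) → z ∈ D ∧ z ∈ Mx b f B ∧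
          g (kinv R c σ y u r z) = θ z := by
        intro z hz hzi
        have g0 := hNlow z hz
        obtain ⟨g1, g2⟩ := hNball z hz
        obtain ⟨f1, f2, f3, f4⟩ := hz
        have g3 := hlow (kinv R c σ y u r z) f1 (by linarith) hzi (by linarith)
        have g4 := hgθ (kinv R c σ y u r z) g1 g2 (by linarith)
        rw [kpt_kinv hr] at g3 g4
        exact ⟨g3.1, g3.2, g4⟩
      refine ⟨τ, hτ1, hτ2, (hlowN z' hz'N (by linarith)).2.1, ?_⟩
      have ho : IsOpen {t' : ℂ | (t', w) ∈ N ∧ (kinv R c σ y u r (t', w)).1.im < -(δ / 16)} := by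
        have hc1 : Continuous fun t' : ℂ => ((t', w) : ℂ × ℂ) := by fun_prop
        exact (hNo.preimage hc1).inter (isOpen_lt (Complex.continuous_im.comp
          (continuous_fst.comp (hkc.comp hc1))) continuous_const)
      filter_upwards [ho.mem_nhds (show (t.re : ℂ) + τ * I ∈
        {t' : ℂ | (t', w) ∈ N ∧ (kinv R c σ y u r (t', w)).1.im < -(δ / 16)} from
        ⟨hz'N, by show (kinv R c σ y u r z').1.im < -(δ / 16); linarith⟩)] with t' ht'
      obtain ⟨g1, g2, g3⟩ := hlowN (t', w) ht'.1 ht'.2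
      rw [g3]
      exact (hrel (t', w) g1).symm
  intro p hp1 hp2
  apply hNM
  refine ⟨?_, ?_, ?_, ?_⟩
  · rw [kinv_kpt hr]
    have := (Complex.abs_re_le_norm (p.1 - a))
    rw [sub_re, ofReal_re] at this
    linarith
  · rw [kinv_kpt hr]
    have := (le_abs_self _).trans (Complex.abs_im_le_norm (p.1 - a))
    rw [sub_im, ofReal_im, sub_zero] at this
    linarith
  · rw [kinv_kpt hr]; exact hp2
  · rw [kpt_im1, hs₀]
    have e1 := (abs_le.1 (hsh _ hp2)).1
    have e2 := (abs_le.1 (Complex.abs_im_le_norm (p.1 - a))).1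
    rw [sub_im, ofReal_im, sub_zero] at e2
    have e3 : -(δ / 4) + c * w₀.re + σ * w₀.im < p.1.im + c * p.2.re + σ * p.2.im := by linarith
    have := mul_lt_mul_of_pos_left e3 hr
    linarith

end Vale.Agent.P097.H929
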