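import Vale.Agent.P097.H929.Bridge2
import Vale.Agent.P097.TC.Defs5

/-! # P097 / row W5-INST: `Tou` along all sequences from the thin layer `Lay` -/

set_option linter.all false

open scoped ComplexConjugate Topology
open Filter Metric Set Complex

namespace Vale.Agent.P097.H929

open Vale.Agent.P097.H85 Vale.Agent.P097.TA Vale.Agent.P097.H543

section
variable {Mj Mk : Set (ℂ × ℂ)} {b H : ℝ} {A : Set ℝ} {P : ℝ → ℂ} {c : ℝ → ℝ} {y₀ u₀ σ s : ℝ}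
variable {ι : Type*} {l : Filter ι} {y u r : ι → ℝ}

theorem kpt_snd_im (R c σ y u r : ℝ) (p : ℂ × ℂ) : (kpt R c σ y u r p).2.im = r * p.2.im :=
  bpt_im2 R y u r (lsh c σ p)

/-- compact subsets of the narrow cone are eventually in the domain of the position -/
theorem Lay.ev_Dm (h : Lay Mj Mk b A P c y₀ u₀ σ s) (hσs : σ < s) (hy : Tendsto y l (𝓝 y₀))
    (hu : Tendsto u l (𝓝 u₀)) (huA : ∀ᶠ n in l, u n ∈ A) (hr : Tendsto r l (𝓝[>] 0))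
    {K : Set (ℂ × ℂ)} (hK : IsCompact K) (hKG : K ⊆ {p | p.1.im < 0 ∧ 0 < p.2.im}) :
    ∀ᶠ n in l, ∀ p ∈ K, kpt (P (u n)).im (c u₀) σ (y n) (u n) (r n) p ∈ A5.Dm Mj Mk := by
  have hKG' : K ⊆ {p : ℂ × ℂ | 0 < p.2.im ∧ p.1.im < (s - σ) * p.2.im} := by
    intro p hp
    have h1 := hKG hp
    have h2 : 0 < (s - σ) * p.2.im := mul_pos (by linarith) h1.2
    exact ⟨h1.2, by linarith [h1.1]⟩
  have er : ∀ᶠ n in l, 0 < r n := hr.eventually self_mem_nhdsWithin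
  filter_upwards [h.wj hy hu huA hr hK hKG, h.wk hy hu huA hr hK hKG', er] with n h1 h2 h3 p hp
  refine ⟨⟨h1 p hp, h2 p hp⟩, ?_⟩
  intro h0
  have h4 := kpt_snd_im (P (u n)).im (c u₀) σ (y n) (u n) (r n) p
  rw [h0, zero_im] at h4
  exact (mul_pos h3 (hKG hp).2).ne h4

/-- **`Tou` from the thin layer, along every sequence of edge points.** -/
theorem Lay.tou {κ : Type*} {f : κ → ℂ → ℂ → ℂ} {B : κ → Set (ℂ × ℂ)}
    {Φ : κ → ℂ × (ℂ × ℂ) → ℂ} {θ : ℂ × ℂ → ℂ} (h : Lay Mj Mk b A P c y₀ u₀ σ s) (hσs : σ < s)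
    (hC : Comp b H f B Mj Mk (A5.Dm Mj Mk) Φ θ) {y u : ℕ → ℝ} (hS : A5.Sq A y₀ u₀ y u) :
    A5.Tou H P c u₀ σ θ y u := by
  intro r hr w₀ hw hw' a δ₀ hδ₀
  have huA : ∀ᶠ n in atTop, u n ∈ A := Eventually.of_forall hS.uA
  exact touch_of_lay h hσs hC hS.yt hS.ut huA hr
    (fun K hK hKG => h.ev_Dm hσs hS.yt hS.ut huA hr hK hKG) hw hw' a hδ₀

end

end Vale.Agent.P097.H929
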