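import Vale.Agent.P097.H6.TopR0
import Vale.Agent.P097.H929.TouL

/-! # P097 / rows A5.COMP, W5-INST: the components of the line `n` over the global world, and TOUCH -/

set_option linter.all false

open Complex Metric Filter Topology Set
open scoped ComplexConjugate

namespace Vale.Agent.P097.H929

open Vale.Agent.P097 Vale.Agent.P097.TA Vale.Agent.P097.H202 Vale.Agent.P097.SC
open Vale.Agent.P097.H85 Vale.Agent.P097.H543 Vale.Agent.P097.H456.C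

/-- the components of the reflected line as functions of the position and of the point
(`i = true` : normal angle, `i = false` : support number) -/
noncomputable def PhB (F q : ℂ → ℂ) (al pp : ℂ × ℂ → ℂ) (i : Bool) (x : ℂ × (ℂ × ℂ)) : ℂ :=
  cond i (2 * F x.1 - al x.2) (2 * q x.1 * cos (F x.1 - al x.2) - pp x.2)

/-- the two components of the line `n` -/
def LnB (A P : ℂ × ℂ → ℂ) (n : ℤ) (i : Bool) : ℂ → ℂ → ℂ := cond i (H6.Ln A n) (H6.Ln P n)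

section
variable {κ Λ b : ℝ} {H Φ : ℂ → ℂ} {r e : ℝ} {α p : ℂ → ℂ → ℂ} {J F q Q : ℂ → ℂ}
  {e₁ c₀ : ℝ} {R : ℂ → ℝ} {A P θ : ℂ × ℂ → ℂ} {n : ℤ} {ε b₀ : ℝ}

/-- line `k` on its domain of continuation -/
noncomputable def alM (R : ℂ → ℝ) (f : ℂ × ℂ → ℂ) (e₁ ε b₀ : ℝ) (k : ℤ) (z : ℂ × ℂ) : ℂ :=
  gx b₀ (H6.Ln f k) (H6.Bn R e₁ ε b₀ k) z.1 z.2

theorem diff_al (hB : CC.Base κ Λ b H Φ r e α p J F q Q e₁ c₀ R A P θ) (k : ℤ) :
    DifferentiableOn ℂ (fun z : ℂ × ℂ => gx b₀ (H6.Ln A k) (H6.Bn R e₁ ε b₀ k) z.1 z.2)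
      (H6.MM R A P e₁ ε b₀ k) ∧
    DifferentiableOn ℂ (fun z : ℂ × ℂ => gx b₀ (H6.Ln P k) (H6.Bn R e₁ ε b₀ k) z.1 z.2)
      (H6.MM R A P e₁ ε b₀ k) := by
  obtain ⟨x1, x2⟩ := H6.ext_MM (n := k) (b₀ := b₀) (ε := ε) hB
  exact ⟨DifferentiableOn.mono x1.jd fun z hz => hz.1, DifferentiableOn.mono x2.jd fun z hz => hz.2⟩

/-- **`Comp` over the global world** -/
theorem comp_MM (hB : CC.Base κ Λ b H Φ r e α p J F q Q e₁ c₀ R A P θ)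
    (hn : |(n : ℝ)| * ε ≤ b₀) {D : Set (ℂ × ℂ)} {th : ℂ × ℂ → ℂ}
    (hrel : ∀ z ∈ D,
      gx b₀ (H6.Ln A n) (H6.Bn R e₁ ε b₀ n) z.1 z.2 =
        2 * F (th z) - gx b₀ (H6.Ln A (n - 1)) (H6.Bn R e₁ ε b₀ (n - 1)) z.1 z.2 ∧
      gx b₀ (H6.Ln P n) (H6.Bn R e₁ ε b₀ n) z.1 z.2 =
        2 * q (th z) * cos (F (th z) -
          gx b₀ (H6.Ln A (n - 1)) (H6.Bn R e₁ ε b₀ (n - 1)) z.1 z.2) -
        gx b₀ (H6.Ln P (n - 1)) (H6.Bn R e₁ ε b₀ (n - 1)) z.1 z.2) :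
    Comp b₀ b (LnB A P n) (fun _ : Bool => H6.Bn R e₁ ε b₀ n) (H6.MM R A P e₁ ε b₀ n)
      (H6.MM R A P e₁ ε b₀ (n - 1)) D
      (PhB F q (fun z => gx b₀ (H6.Ln A (n - 1)) (H6.Bn R e₁ ε b₀ (n - 1)) z.1 z.2)
        (fun z => gx b₀ (H6.Ln P (n - 1)) (H6.Bn R e₁ ε b₀ (n - 1)) z.1 z.2)) th := by
  obtain ⟨d1, d2⟩ := diff_al (ε := ε) (b₀ := b₀) hB (n - 1)
  obtain ⟨j1, j2⟩ := H6.jd_Ln (n := n) hB hn
  have hS : IsOpen (Str b) := isOpen_Str b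
  have e1 : DifferentiableOn ℂ (fun x : ℂ × (ℂ × ℂ) => F x.1)
      {q | |q.1.im| < b ∧ q.2 ∈ H6.MM R A P e₁ ε b₀ (n - 1)} :=
    hB.bs.dF.comp differentiable_fst.differentiableOn fun x hx => hx.1
  have e2 : DifferentiableOn ℂ (fun x : ℂ × (ℂ × ℂ) => q x.1)
      {q | |q.1.im| < b ∧ q.2 ∈ H6.MM R A P e₁ ε b₀ (n - 1)} :=
    hB.bs.dq.comp differentiable_fst.differentiableOn fun x hx => hx.1
  have e3 : DifferentiableOn ℂ (fun x : ℂ × (ℂ × ℂ) =>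
      gx b₀ (H6.Ln A (n - 1)) (H6.Bn R e₁ ε b₀ (n - 1)) x.2.1 x.2.2)
      {q | |q.1.im| < b ∧ q.2 ∈ H6.MM R A P e₁ ε b₀ (n - 1)} :=
    d1.comp differentiable_snd.differentiableOn fun x hx => hx.2
  have e4 : DifferentiableOn ℂ (fun x : ℂ × (ℂ × ℂ) =>
      gx b₀ (H6.Ln P (n - 1)) (H6.Bn R e₁ ε b₀ (n - 1)) x.2.1 x.2.2)
      {q | |q.1.im| < b ∧ q.2 ∈ H6.MM R A P e₁ ε b₀ (n - 1)} :=
    d2.comp differentiable_snd.differentiableOn fun x hx => hx.2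
  refine ⟨fun _ => H6.dn_Bn hB, ?_, ?_, ?_, ?_, ?_⟩
  · rintro (_ | _)
    · exact j2
    · exact j1
  · rintro (_ | _) z hz
    · exact hz.2
    · exact hz.1
  · intro z hz
    exact ⟨hz true, hz false⟩
  · rintro (_ | _)
    · exact ((e2.const_mul 2).mul (e1.sub e3).ccos).sub e4
    · exact (e1.const_mul 2).sub e3
  · rintro (_ | _) z hz
    · exact (hrel z hz).2
    · exact (hrel z hz).1

end

end Vale.Agent.P097.H929
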