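import Vale.Agent.P097.H929.LayT

/-! # P097 / row W5-INST: the body of `H74.Inst`, with the growth as a hypothesis -/

set_option linter.all false

open Complex Metric Filter Topology Set
open scoped ComplexConjugate

namespace Vale.Agent.P097.H929

open Vale.Agent.P097 Vale.Agent.P097.TA Vale.Agent.P097.H202 Vale.Agent.P097.SC
open Vale.Agent.P097.H85 Vale.Agent.P097.H543 Vale.Agent.P097.H456.C
open Vale.Agent.P097.H6 Vale.Agent.P097.TC Vale.Agent.P097.H320.W5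

variable {κ Λ b : ℝ} {H Φ : ℂ → ℂ} {r e : ℝ} {α p : ℂ → ℂ → ℂ} {J F q Q : ℂ → ℂ}
  {e₁ c₀ : ℝ} {R : ℂ → ℝ} {A P θ : ℂ × ℂ → ℂ} {n : ℤ} {ε b₀ : ℝ}

theorem inst_body {m : ℝ} {Ψ : ℂ → ℂ} {S : Set ℝ} {Pt : ℝ → ℂ} {c k : ℝ → ℝ} {y₁ y₂ s s' : ℝ}
    (hB : CC.Base κ Λ b H Φ r e α p J F q Q e₁ c₀ R A P θ)
    (G : GW R A P e₁ n ε b₀ m Ψ S Pt c k y₁ y₂ s s') (hg : A5.Gro b F q) :
    ∃ (K : ℝ) (al pp th : ℂ × ℂ → ℂ),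
      (∀ z ∈ Wn R e₁ ε b₀ n, th z = Th θ n z) ∧
      ∀ {y₀ u₀ σ : ℝ}, σ ≤ s' →
        Lay (MM R A P e₁ ε b₀ n) (MM R A P e₁ ε b₀ (n - 1)) b₀ S Pt c y₀ u₀ σ s →
        A5.W5 Λ b F q b₀ m Ψ (MM R A P e₁ ε b₀ n) (MM R A P e₁ ε b₀ (n - 1))
          (Wn R e₁ ε b₀ n ∩ Wne) S Pt c k K y₀ u₀ σ s al pp th J ∧
        ∀ y u : ℕ → ℝ, A5.Sq S y₀ u₀ y u → A5.Tou b Pt c u₀ σ th y u := by
  obtain ⟨K, th, T, hth, hK⟩ := w5_of hB G hg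
  refine ⟨K, Lc R A e₁ ε b₀ (n - 1), Lc R P e₁ ε b₀ (n - 1), th, hth, fun {y₀ u₀ σ} hσ L => ?_⟩
  have h1 : σ < s := hσ.trans_lt G.ss
  exact ⟨hK L.u0 h1 L.regj L.regk, fun y u hS => tou_psn hB G T h1 L hS⟩

end Vale.Agent.P097.H929
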