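import Vale.Agent.P097.H85.PL

/-! # P097 / row (TOUCH), part 1: the kernel -/

set_option linter.all false

open scoped ComplexConjugate Topology
open Filter Metric Set Complex

namespace Vale.Agent.P097.H929

open Vale.Agent.P097.H85

/-- the kernel: pole slightly above the upper side, odd in the real axis -/
noncomputable def ker (A x₀ h' : ℝ) (z : ℂ) : ℂ :=
  A * ((z - (x₀ + h' * I))⁻¹ + (z - (x₀ - h' * I))⁻¹)

/-- the first denominator -/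
def D₁ (x₀ h' : ℝ) (z : ℂ) : ℝ := (z.re - x₀) ^ 2 + (z.im - h') ^ 2

/-- the second denominator -/
def D₂ (x₀ h' : ℝ) (z : ℂ) : ℝ := (z.re - x₀) ^ 2 + (z.im + h') ^ 2

theorem ker_im {A x₀ h' : ℝ} {z : ℂ} (h1 : D₁ x₀ h' z ≠ 0) (h2 : D₂ x₀ h' z ≠ 0) :
    (ker A x₀ h' z).im =
      2 * A * z.im * (h' ^ 2 - ((z.re - x₀) ^ 2 + z.im ^ 2)) / (D₁ x₀ h' z * D₂ x₀ h' z) := by
  have e1 : Complex.normSq (z - (x₀ + h' * I)) = D₁ x₀ h' z := by
    simp [Complex.normSq_apply, D₁]; ring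
  have e2 : Complex.normSq (z - (x₀ - h' * I)) = D₂ x₀ h' z := by
    simp [Complex.normSq_apply, D₂]; ring
  have e3 : (z - (x₀ + h' * I)).im = z.im - h' := by simp
  have e4 : (z - (x₀ - h' * I)).im = z.im + h' := by simp
  unfold ker
  rw [Complex.im_ofReal_mul, add_im, Complex.inv_im, Complex.inv_im, e1, e2, e3, e4]
  rw [div_add_div _ _ h1 h2, ← mul_div_assoc]
  congr 1
  unfold D₁ D₂
  ring

theorem D₁_lb {x₀ h' h : ℝ} {z : ℂ} (hh : h < h') (hz : z.im ≤ h) :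
    (h' - h) ^ 2 ≤ D₁ x₀ h' z := by
  unfold D₁
  have h1 : (h' - h) ^ 2 ≤ (z.im - h') ^ 2 := by
    have : (z.im - h') ^ 2 = (h' - z.im) ^ 2 := by ring
    rw [this]
    exact pow_le_pow_left₀ (by linarith) (by linarith) 2
  have h2 := sq_nonneg (z.re - x₀)
  linarith

theorem D₂_lb {x₀ h' : ℝ} {z : ℂ} (hh : 0 < h') (hz : 0 ≤ z.im) :
    h' ^ 2 ≤ D₂ x₀ h' z := by
  unfold D₂
  have h1 : h' ^ 2 ≤ (z.im + h') ^ 2 := pow_le_pow_left₀ hh.le (by linarith) 2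
  have h2 := sq_nonneg (z.re - x₀)
  linarith

theorem ker_im_nonpos {A x₀ h' h : ℝ} {z : ℂ} (hA : 0 ≤ A) (h0 : 0 < h) (hh : h < h')
    (hz0 : 0 ≤ z.im) (hz : z.im ≤ h) (hout : h' ^ 2 ≤ (z.re - x₀) ^ 2 + z.im ^ 2) :
    (ker A x₀ h' z).im ≤ 0 := by
  have d1 : 0 < D₁ x₀ h' z := lt_of_lt_of_le (pow_pos (by linarith) 2) (D₁_lb hh hz)
  have d2 : 0 < D₂ x₀ h' z := lt_of_lt_of_le (pow_pos (by linarith) 2) (D₂_lb (by linarith) hz0)
  rw [ker_im d1.ne' d2.ne']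
  apply div_nonpos_of_nonpos_of_nonneg _ (by positivity)
  apply mul_nonpos_of_nonneg_of_nonpos (by positivity) (by linarith)

theorem ker_im_le {A x₀ h' h : ℝ} {z : ℂ} (hA : 0 ≤ A) (h0 : 0 < h) (hh : h < h')
    (hz0 : 0 ≤ z.im) (hz : z.im ≤ h) :
    (ker A x₀ h' z).im ≤ 2 * A / (h' - h) ^ 2 * z.im := by
  have l1 := D₁_lb (x₀ := x₀) hh hz
  have l2 := D₂_lb (x₀ := x₀) (by linarith : 0 < h') hz0
  have p1 : 0 < (h' - h) ^ 2 := pow_pos (by linarith) 2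
  have p2 : 0 < h' ^ 2 := pow_pos (by linarith) 2
  have d1 : 0 < D₁ x₀ h' z := lt_of_lt_of_le p1 l1
  have d2 : 0 < D₂ x₀ h' z := lt_of_lt_of_le p2 l2
  rw [ker_im d1.ne' d2.ne', div_le_iff₀ (by positivity)]
  have e1 : 2 * A * z.im * (h' ^ 2 - ((z.re - x₀) ^ 2 + z.im ^ 2)) ≤ 2 * A * z.im * h' ^ 2 := by
    apply mul_le_mul_of_nonneg_left _ (by positivity)
    have := sq_nonneg (z.re - x₀)
    have := sq_nonneg z.im
    linarith
  have e2 : (h' - h) ^ 2 * h' ^ 2 ≤ D₁ x₀ h' z * D₂ x₀ h' z :=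
    mul_le_mul l1 l2 p2.le d1.le
  have hne : h' - h ≠ 0 := by
    intro h9
    linarith
  have e3 : 2 * A * z.im * h' ^ 2 = 2 * A / (h' - h) ^ 2 * z.im * ((h' - h) ^ 2 * h' ^ 2) := by
    field_simp
  rw [e3] at e1
  refine e1.trans ?_
  exact mul_le_mul_of_nonneg_left e2 (by positivity)

theorem ker_norm {A x₀ h' h : ℝ} {z : ℂ} (hA : 0 ≤ A) (h0 : 0 < h) (hh : h < h')
    (hz0 : 0 ≤ z.im) (hz : z.im ≤ h) : ‖ker A x₀ h' z‖ ≤ 2 * A / (h' - h) := by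
  have p1 : 0 < h' - h := by linarith
  have n1 : h' - h ≤ ‖z - (x₀ + h' * I)‖ := by
    have := Complex.abs_im_le_norm (z - (x₀ + h' * I))
    have e : (z - (x₀ + h' * I)).im = z.im - h' := by simp
    rw [e, abs_sub_comm] at this
    exact (by linarith [le_abs_self (h' - z.im)])
  have n2 : h' - h ≤ ‖z - (x₀ - h' * I)‖ := by
    have := Complex.abs_im_le_norm (z - (x₀ - h' * I))
    have e : (z - (x₀ - h' * I)).im = z.im + h' := by simp
    rw [e] at this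
    exact (by linarith [le_abs_self (z.im + h')])
  have i1 : ‖(z - (x₀ + h' * I))⁻¹‖ ≤ (h' - h)⁻¹ := by
    rw [norm_inv]; exact inv_anti₀ p1 n1
  have i2 : ‖(z - (x₀ - h' * I))⁻¹‖ ≤ (h' - h)⁻¹ := by
    rw [norm_inv]; exact inv_anti₀ p1 n2
  unfold ker
  rw [norm_mul, Complex.norm_real, Real.norm_of_nonneg hA]
  have i3 := norm_add_le (z - (x₀ + h' * I))⁻¹ (z - (x₀ - h' * I))⁻¹
  have i4 : ‖(z - (x₀ + h' * I))⁻¹ + (z - (x₀ - h' * I))⁻¹‖ ≤ 2 * (h' - h)⁻¹ := by linarith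
  have i5 := mul_le_mul_of_nonneg_left i4 hA
  rw [div_eq_mul_inv]
  linarith

theorem ker_low {A x₀ h' h u : ℝ} {z : ℂ} (hA : 0 ≤ A) (h0 : 0 < h) (hh : h < h')
    (hh2 : h' ≤ 2 * h) (hx : |x₀ - u| ≤ h / 2) (hz0 : 0 ≤ z.im) (hzu : |z.re - u| ≤ h / 8)
    (hz : z.im ≤ h / 8) :
    A / (98 * h ^ 2) * z.im ≤ (ker A x₀ h' z).im := by
  have l1 := D₁_lb (x₀ := x₀) hh (by linarith : z.im ≤ h)
  have l2 := D₂_lb (x₀ := x₀) (by linarith : 0 < h') hz0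
  have p1 : 0 < (h' - h) ^ 2 := pow_pos (by linarith) 2
  have p2 : 0 < h' ^ 2 := pow_pos (by linarith) 2
  have d1 : 0 < D₁ x₀ h' z := lt_of_lt_of_le p1 l1
  have d2 : 0 < D₂ x₀ h' z := lt_of_lt_of_le p2 l2
  have hX : |z.re - x₀| ≤ 5 / 8 * h := by
    have := abs_sub_le z.re u x₀
    rw [abs_sub_comm u x₀] at this
    linarith
  have hX2 : (z.re - x₀) ^ 2 ≤ (5 / 8 * h) ^ 2 := by
    rw [← sq_abs (z.re - x₀)]
    exact pow_le_pow_left₀ (abs_nonneg _) hX 2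
  have hY2 : z.im ^ 2 ≤ (h / 8) ^ 2 := pow_le_pow_left₀ hz0 hz 2
  have u1 : D₁ x₀ h' z ≤ 7 * h ^ 2 := by
    unfold D₁
    have : (z.im - h') ^ 2 ≤ (2 * h) ^ 2 := by
      rw [← sq_abs]
      apply pow_le_pow_left₀ (abs_nonneg _)
      rw [abs_sub_comm, abs_of_nonneg (by linarith)]
      linarith
    nlinarith
  have u2 : D₂ x₀ h' z ≤ 7 * h ^ 2 := by
    unfold D₂
    have : (z.im + h') ^ 2 ≤ (17 / 8 * h) ^ 2 := by
      apply pow_le_pow_left₀ (by linarith)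
      linarith
    nlinarith
  have hh2' : h ^ 2 ≤ h' ^ 2 := pow_le_pow_left₀ h0.le hh.le 2
  rw [ker_im d1.ne' d2.ne', le_div_iff₀ (by positivity)]
  have e2 : D₁ x₀ h' z * D₂ x₀ h' z ≤ (7 * h ^ 2) * (7 * h ^ 2) :=
    mul_le_mul u1 u2 d2.le (by positivity)
  have e1 : A / (98 * h ^ 2) * z.im * (D₁ x₀ h' z * D₂ x₀ h' z) ≤
      A / (98 * h ^ 2) * z.im * ((7 * h ^ 2) * (7 * h ^ 2)) :=
    mul_le_mul_of_nonneg_left e2 (by positivity)
  have e3 : A / (98 * h ^ 2) * z.im * ((7 * h ^ 2) * (7 * h ^ 2)) = 2 * A * z.im * (h ^ 2 / 4) := by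
    field_simp
    ring
  rw [e3] at e1
  refine e1.trans ?_
  apply mul_le_mul_of_nonneg_left _ (by positivity)
  nlinarith

theorem ker_diff (A x₀ h' : ℝ) : DifferentiableOn ℂ (ker A x₀ h') {z | -h' < z.im ∧ z.im < h'} := by
  intro z hz
  have e3 : (z - (x₀ + h' * I)).im = z.im - h' := by simp
  have e4 : (z - (x₀ - h' * I)).im = z.im + h' := by simp
  have n1 : z - (x₀ + h' * I) ≠ 0 := by
    intro h
    rw [h] at e3
    have := hz.2
    simp at e3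
    linarith
  have n2 : z - (x₀ - h' * I) ≠ 0 := by
    intro h
    rw [h] at e4
    have := hz.1
    simp at e4
    linarith
  apply DifferentiableAt.differentiableWithinAt
  unfold ker
  have d1 : DifferentiableAt ℂ (fun z : ℂ => (z - (x₀ + h' * I))⁻¹) z :=
    DifferentiableAt.inv (by fun_prop) n1
  have d2 : DifferentiableAt ℂ (fun z : ℂ => (z - (x₀ - h' * I))⁻¹) z :=
    DifferentiableAt.inv (by fun_prop) n2
  exact (d1.add d2).const_mul _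

theorem isOpen_strip (h' : ℝ) : IsOpen {z : ℂ | -h' < z.im ∧ z.im < h'} :=
  (isOpen_lt continuous_const continuous_im).inter (isOpen_lt continuous_im continuous_const)

end Vale.Agent.P097.H929
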