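import Vale.Agent.P097.H929.CompI
import Vale.Agent.P097.H320.W5.Inst

/-! # P097 / row W5-INST: the layer of the global world as a static world `W5` with `Tou` along all
sequences of edge points -/

set_option linter.all false

open Complex Metric Filter Topology Set
open scoped ComplexConjugate

namespace Vale.Agent.P097.H929

open Vale.Agent.P097 Vale.Agent.P097.TA Vale.Agent.P097.H202 Vale.Agent.P097.SC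
open Vale.Agent.P097.H85 Vale.Agent.P097.H543 Vale.Agent.P097.H456.C
open Vale.Agent.P097.H6 Vale.Agent.P097.TC Vale.Agent.P097.H320.W5

variable {κ Λ b : ℝ} {H Φ : ℂ → ℂ} {r e : ℝ} {α p : ℂ → ℂ → ℂ} {J F q Q : ℂ → ℂ}
  {e₁ c₀ : ℝ} {R : ℂ → ℝ} {A P θ : ℂ × ℂ → ℂ} {n : ℤ} {ε b₀ : ℝ}

/-- **`Comp` over the global world, for the position `th` of `PsnW`** -/
theorem comp_psn (hB : CC.Base κ Λ b H Φ r e α p J F q Q e₁ c₀ R A P θ)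
    (hn : |(n : ℝ)| * ε ≤ b₀) {th : ℂ × ℂ → ℂ} (T : PsnW b F q R A P e₁ ε b₀ n th) :
    Comp b₀ b (LnB A P n) (fun _ : Bool => Bn R e₁ ε b₀ n) (MM R A P e₁ ε b₀ n)
      (MM R A P e₁ ε b₀ (n - 1)) (A5.Dm (MM R A P e₁ ε b₀ n) (MM R A P e₁ ε b₀ (n - 1)))
      (PhB F q (Lc R A e₁ ε b₀ (n - 1)) (Lc R P e₁ ε b₀ (n - 1))) th :=
  comp_MM hB hn fun z hz => ⟨(rel_of T hz.1).2.1, (rel_of T hz.1).2.2⟩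

/-- **TOUCH along all sequences at a point of the layer** -/
theorem tou_psn {m : ℝ} {Ψ : ℂ → ℂ} {S : Set ℝ} {Pt : ℝ → ℂ} {c k : ℝ → ℝ} {y₁ y₂ s s' : ℝ}
    (hB : CC.Base κ Λ b H Φ r e α p J F q Q e₁ c₀ R A P θ)
    (G : GW R A P e₁ n ε b₀ m Ψ S Pt c k y₁ y₂ s s') {th : ℂ × ℂ → ℂ}
    (T : PsnW b F q R A P e₁ ε b₀ n th) {y₀ u₀ σ : ℝ} (hσ : σ < s)
    (L : Lay (MM R A P e₁ ε b₀ n) (MM R A P e₁ ε b₀ (n - 1)) b₀ S Pt c y₀ u₀ σ s)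
    {y u : ℕ → ℝ} (hS : A5.Sq S y₀ u₀ y u) : A5.Tou b Pt c u₀ σ th y u :=
  L.tou hσ (comp_psn hB (G.rh hB).1.1 T) hS

/-- **the layer** : `K` and `th` are fixed before the point -/
theorem layer {m : ℝ} {Ψ : ℂ → ℂ} {S : Set ℝ} {Pt : ℝ → ℂ} {c k : ℝ → ℝ} {y₁ y₂ s s' : ℝ}
    (hB : CC.Base κ Λ b H Φ r e α p J F q Q e₁ c₀ R A P θ)
    (G : GW R A P e₁ n ε b₀ m Ψ S Pt c k y₁ y₂ s s') (hg : A5.Gro b F q) {th : ℂ × ℂ → ℂ}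
    (T : PsnW b F q R A P e₁ ε b₀ n th) :
    ∃ K : ℝ, (∀ {y₀ u₀ σ : ℝ}, u₀ ∈ S → σ < s →
      (∀ δ > 0, RegB (MM R A P e₁ ε b₀ n) b₀ S Pt c y₀ u₀ (σ - δ)) →
      (∀ δ > 0, RegB (MM R A P e₁ ε b₀ (n - 1)) b₀ S Pt c y₀ u₀ (s - δ)) →
      A5.W5 Λ b F q b₀ m Ψ (MM R A P e₁ ε b₀ n) (MM R A P e₁ ε b₀ (n - 1))
        (Wn R e₁ ε b₀ n ∩ Wne) S Pt c k K y₀ u₀ σ s (Lc R A e₁ ε b₀ (n - 1))
        (Lc R P e₁ ε b₀ (n - 1)) th J) ∧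
    ∃ y₀ u₀ σ : ℝ, y₁ < y₀ ∧ y₀ < y₂ ∧ u₀ ∈ S ∧ σ ≤ s' ∧
      Lay (MM R A P e₁ ε b₀ n) (MM R A P e₁ ε b₀ (n - 1)) b₀ S Pt c y₀ u₀ σ s ∧
      A5.W5 Λ b F q b₀ m Ψ (MM R A P e₁ ε b₀ n) (MM R A P e₁ ε b₀ (n - 1))
        (Wn R e₁ ε b₀ n ∩ Wne) S Pt c k K y₀ u₀ σ s (Lc R A e₁ ε b₀ (n - 1))
        (Lc R P e₁ ε b₀ (n - 1)) th J ∧
      ∀ y u : ℕ → ℝ, A5.Sq S y₀ u₀ y u → A5.Tou b Pt c u₀ σ th y u := by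
  obtain ⟨K, hK⟩ := w5_psn hB G hg T
  obtain ⟨y₀, u₀, σ, h1, h2, h3, h4⟩ := G.exists_lay hB
  have hσ : σ < s := h3.trans_lt G.ss
  exact ⟨K, hK, y₀, u₀, σ, h1, h2, h4.u0, h3, h4, hK h4.u0 hσ h4.regj h4.regk,
    fun y u hS => tou_psn hB G T hσ h4 hS⟩

end Vale.Agent.P097.H929
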