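import Vale.Agent.P097.H929.TouchMain

/-! # P097 / row (THIN), part 1: propagation to all cones and to all neighbouring labels -/

set_option linter.all false

open scoped ComplexConjugate Topology
open Filter Metric Set Complex

namespace Vale.Agent.P097.H929

open Vale.Agent.P097.H85

/-- a point of a window and the disc through it -/
theorem pt_gen {M : Set (ℂ × ℂ)} {b m : ℝ} {Ψ : ℂ → ℂ} {u ρ : ℝ} {P₀ : ℂ} {c k c₀ ε : ℝ}
    (hC : Cmp M b m Ψ u ρ P₀ c k c₀ ε) {s₁ Λ κ e₀ : ℝ} (hc₀ : 0 < c₀)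
    (hε : 0 ≤ ε) {θ τ : ℝ} (hθ : 0 < θ) (hε2 : 8 * ε ≤ θ * c₀)
    (hκ : 0 < κ) {yc y' r' : ℝ} (hr' : 0 < r') (hrρ : r' < ρ)
    (hκr' : κ * r' ≤ θ * c₀ / 4) (he1 : e₀ < θ * c₀ * r' / 4) {t w g : ℂ}
    (hgi : (τ + θ) * w.im ≤ g.im)
    (h : (t, w) ∈ Win b u P₀.im c y' r' (k + s₁ + τ) c₀ Λ) :
    (t - (phi Ψ u s₁ κ e₀ w + g)).im < 0 ∧
      |(t - (phi Ψ u s₁ κ e₀ w + g)).re - (yc - P₀.re)| ≤ Λ * r' + |y' - yc| +
        ((|c| + |k| + 2 * ε) * r' + |s₁| * r' + 2 * (κ * r') * r') + |g.re| := by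
  obtain ⟨hw1, hw2, hw3, ht1, ht2, ht3⟩ := h
  simp only at hw1 hw2 hw3 ht1 ht2 ht3
  have hwim : 0 < w.im := lt_of_lt_of_le (by positivity) hw2
  have a5 : c₀ * |w.re - u| ≤ w.im := (mul_le_mul_of_nonneg_left hw1 hc₀.le).trans hw2
  obtain ⟨n1, n2⟩ := hC.re_im hε (r := r') (by linarith) hwim (by linarith) a5 hw1 hw3
  have hX2 : (w.re - u) ^ 2 ≤ r' ^ 2 := by
    rw [← sq_abs (w.re - u)]
    exact pow_le_pow_left₀ (abs_nonneg _) hw1 2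
  have hκX : κ * (w.re - u) ^ 2 ≤ θ * c₀ * r' / 4 := by
    have e1 : κ * (w.re - u) ^ 2 ≤ κ * r' ^ 2 := mul_le_mul_of_nonneg_left hX2 hκ.le
    have e2 : κ * r' * r' ≤ θ * c₀ / 4 * r' := mul_le_mul_of_nonneg_right hκr' hr'.le
    have e3 : κ * r' ^ 2 = κ * r' * r' := by ring
    linarith
  constructor
  · rw [sub_im, add_im, phi_im]
    have e1 := (abs_le.1 n2).1
    have e2 : 2 * ε * r' ≤ θ * c₀ * r' / 4 := by
      have e3 : 8 * ε * r' ≤ θ * c₀ * r' := mul_le_mul_of_nonneg_right hε2 hr'.le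
      linarith
    have e4 : θ * (c₀ * r') ≤ θ * w.im := mul_le_mul_of_nonneg_left hw2 hθ.le
    have e5 : 0 ≤ κ * w.im ^ 2 := by positivity
    have e6 : κ * ((w.re - u) ^ 2 - w.im ^ 2) = κ * (w.re - u) ^ 2 - κ * w.im ^ 2 := by ring
    have e7 : (k + s₁ + τ) * w.im = k * w.im + s₁ * w.im + τ * w.im := by ring
    have e8 : 0 < θ * w.im := by positivity
    have e9 : (τ + θ) * w.im = τ * w.im + θ * w.im := by ring
    rw [e7] at ht3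
    rw [e9] at hgi
    rw [e6]
    linarith
  · have e0 := phi_re_bound hC hε (s₁ := s₁) (e₀ := e₀) hκ (by linarith) hw1 hwim hw3
      (by linarith) a5
    have e6 : (t - (phi Ψ u s₁ κ e₀ w + g)).re - (yc - P₀.re) = ((t.re - y') + (y' - yc)) -
        (((phi Ψ u s₁ κ e₀ w).re - P₀.re) + g.re) := by
      rw [sub_re, add_re]; ring
    rw [e6]
    have e7 := abs_sub ((t.re - y') + (y' - yc)) (((phi Ψ u s₁ κ e₀ w).re - P₀.re) + g.re)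
    have e12 := abs_add_le (t.re - y') (y' - yc)
    have e13 := abs_add_le ((phi Ψ u s₁ κ e₀ w).re - P₀.re) g.re
    linarith

/-- **Propagation lemma** with a change of the cone constants. -/
theorem prop2 {M : Set (ℂ × ℂ)} {b m : ℝ} {Ψ : ℂ → ℂ} {u ρ : ℝ} {P₀ : ℂ} {c k c₀ ε : ℝ}
    (hM : RH b M) (hC : Cmp M b m Ψ u ρ P₀ c k c₀ ε) {ρ₁ c₁ ε₁ : ℝ}
    (hC₁ : Cmp M b m Ψ u ρ₁ P₀ c k c₁ ε₁) {s₁ δ Λ Λ₁ : ℝ} (hbm : b < m) (hδ : 0 < δ)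
    (hc₀ : 0 < c₀) (hc1 : c₀ ≤ 1 / 2) (hε : 0 ≤ ε) (hε1 : 8 * ε ≤ δ * c₀) (hs : |s₁| * c₀ ≤ δ)
    (hΛ : 1 + |c| + |k| + 2 * ε + |s₁| + 4 * δ ≤ Λ) {r : ℝ} (hr : 0 < r)
    (hrρ : r < ρ) (hr1 : (|s₁| + 2 * δ) * r ≤ (m - b) / 16) {y : ℝ}
    (hwin : Win b u P₀.im c y r (k + s₁ + 3 * δ) c₀ Λ ⊆ M)
    (hc₁ : 0 < c₁) (hε₁ : 0 ≤ ε₁) (hε₁1 : 8 * ε₁ ≤ δ * c₁) {y' r' : ℝ} (hy : |y' - y| ≤ r / 4)
    (hr' : 0 < r') (hrρ' : r' < ρ₁) (hrr : r' < r) (hrr2 : 8 * r' ≤ c₁ * r)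
    (hΛr : (Λ₁ + |c| + |k| + 2 * ε₁ + |s₁| + 4 * δ) * r' ≤ r / 2) :
    Win b u P₀.im c y' r' (k + s₁ - δ) c₁ Λ₁ ⊆ M := by
  rintro ⟨t, w⟩ hp
  obtain ⟨hw1, hw2, hw3, ht1, ht2, ht3⟩ := id hp
  simp only at hw1 hw2 hw3 ht1 ht2 ht3
  set κ : ℝ := 2 * δ / r with hκd
  have hκr : κ * r = 2 * δ := by rw [hκd]; field_simp
  have hκ : 0 < κ := by rw [hκd]; positivity
  have hwim : 0 < w.im := lt_of_lt_of_le (by positivity) hw2
  have hκr' : κ * r' ≤ δ * c₁ / 4 := by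
    have e1 : κ * (8 * r') ≤ κ * (c₁ * r) := mul_le_mul_of_nonneg_left hrr2 hκ.le
    have e2 : κ * (c₁ * r) = c₁ * (κ * r) := by ring
    rw [e2, hκr] at e1
    linarith
  obtain ⟨η, hη, hη1, he1, he2⟩ := exists_eta (s₁ := s₁) (κ := κ)
    (show (0 : ℝ) < δ * c₁ * r' / 4 by positivity) (show (0 : ℝ) < (m - b) / 16 by linarith) hwim
  have he0 : 0 ≤ |s₁| * η + κ * η ^ 2 := by positivity
  have hp' : (t, w) ∈ Win b u P₀.im c y' r' (k + s₁ + -δ) c₁ Λ₁ := by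
    rwa [← sub_eq_add_neg]
  obtain ⟨d1, d2⟩ := pt_gen hC₁ (s₁ := s₁) (τ := -δ) (θ := δ) (g := 0) hc₁ hε₁ hδ hε₁1 hκ hr' hrρ'
    hκr' he1 (yc := y) (by simp) hp'
  rw [add_zero] at d1 d2
  have d2' : |(t - phi Ψ u s₁ κ (|s₁| * η + κ * η ^ 2) w).re - (y - P₀.re)| < r := by
    have e1 : 2 * (κ * r') * r' ≤ 4 * δ * r' := by
      have e6 : κ * r' ≤ κ * r := mul_le_mul_of_nonneg_left hrr.le hκ.le
      rw [hκr] at e6
      have e7 : 2 * (κ * r') * r' ≤ 2 * (2 * δ) * r' := by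
        apply mul_le_mul_of_nonneg_right _ hr'.le
        linarith
      linarith
    have e2 : (Λ₁ + |c| + |k| + 2 * ε₁ + |s₁| + 4 * δ) * r' =
      Λ₁ * r' + ((|c| + |k| + 2 * ε₁) * r' + |s₁| * r' + 4 * δ * r') := by ring
    simp only [zero_re, abs_zero, add_zero] at d2
    linarith
  have hXl := abs_lt.1 (lt_of_le_of_lt hw1 hrr)
  have hwRo : w ∈ Ro (u - r) (u + r) η r :=
    ⟨⟨by linarith, by linarith⟩, hη1, by linarith⟩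
  have key := fun ζ h1 h2 h3 => prop_core hM hC hbm hδ hc₀ hc1 hε hε1 hs hΛ hr hrρ hr1 hwin hκr hκ
    hη (by linarith) he2 (ζ := ζ) h1 h2 h3 hwRo
  set φw : ℂ := phi Ψ u s₁ κ (|s₁| * η + κ * η ^ 2) w with hφw
  by_cases hζβ : -((m - b) / 4) < (t - φw).im
  · have := key (t - φw) d2' hζβ d1
    rwa [sub_add_cancel] at this
  · push Not at hζβ
    have h1 := key (((t - φw).re : ℂ) + ((-(m - b) / 8 : ℝ) : ℂ) * I) (by simpa using d2')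
      (by simp; linarith) (by simp; linarith)
    have h2 := hM.dn.down _ _ t.im h1 ht2 (by
      rw [sub_im] at hζβ
      simp
      linarith)
    have h3 : ((((((t - φw).re : ℂ) + ((-(m - b) / 8 : ℝ) : ℂ) * I) + φw).re : ℂ) +
        t.im * I) = t := by
      apply Complex.ext
      · simp
      · simp
    rwa [h3] at h2

/-- uniform comparison data over a set `A` of labels -/
structure CmpU (M : Set (ℂ × ℂ)) (b m : ℝ) (Ψ : ℂ → ℂ) (A : Set ℝ) (P : ℝ → ℂ) (c k : ℝ → ℝ) :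
    Prop where
  bd : ∃ S : ℝ, ∀ u ∈ A, |c u| ≤ S ∧ |k u| ≤ S
  cmp : ∀ c₀ > 0, ∀ ε > 0, ∃ ρ > 0, ∀ u ∈ A, Cmp M b m Ψ u ρ (P u) (c u) (k u) c₀ ε

/-- windows are monotone -/
theorem win_mono {b u R₀ c y r s s' c₀ c₀' Λ Λ' : ℝ} (hc : c₀' ≤ c₀) (hΛ : Λ ≤ Λ') (hs : s ≤ s')
    (hr : 0 < r) (hc₀ : 0 < c₀) :
    Win b u R₀ c y r s c₀ Λ ⊆ Win b u R₀ c y r s' c₀' Λ' := by
  rintro ⟨t, w⟩ ⟨h1, h2, h3, h4, h5, h6⟩
  have h2' : c₀' * r ≤ c₀ * r := mul_le_mul_of_nonneg_right hc hr.le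
  have h0 : 0 < w.im := lt_of_lt_of_le (by positivity) h2
  refine ⟨h1, h2'.trans h2, h3, h4.trans (mul_le_mul_of_nonneg_right hΛ hr.le), h5, h6.trans ?_⟩
  have := mul_le_mul_of_nonneg_right hs h0.le
  simp only at this ⊢
  linarith

/-- change of the label -/
theorem win_label {b u u' R₀ R₁ c c' y y' r s δ c₀ Λ : ℝ} (hr : 0 < r) (hδ : 0 ≤ δ) (hc₀ : 0 < c₀)
    (hu : |u' - u| ≤ r / 2) (hy : |y' - y| ≤ Λ * r / 2)
    (h : |R₁ - R₀| + |c' - c| * r + |c| * |u' - u| ≤ δ * (c₀ * r)) :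
    Win b u' R₁ c' y' (r / 2) (s - δ) (2 * c₀) Λ ⊆ Win b u R₀ c y r s c₀ Λ := by
  rintro ⟨t, w⟩ ⟨h1, h2, h3, h4, h5, h6⟩
  simp only at h1 h2 h3 h4 h5 h6
  have h2' : c₀ * r ≤ w.im := by
    have : 2 * c₀ * (r / 2) = c₀ * r := by ring
    linarith
  refine ⟨?_, h2', by linarith, ?_, h5, ?_⟩
  · show |w.re - u| ≤ r
    have := abs_sub_le w.re u' u
    linarith
  · show |t.re - y| ≤ Λ * r
    have := abs_sub_le t.re y' y
    linarith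
  · show t.im ≤ R₀ + c * (w.re - u) + s * w.im
    have e1 : R₁ + c' * (w.re - u') + (s - δ) * w.im = R₀ + c * (w.re - u) + s * w.im +
      ((R₁ - R₀) + (c' - c) * (w.re - u') - c * (u' - u) - δ * w.im) := by ring
    have e2 := le_abs_self (R₁ - R₀)
    have e3 : (c' - c) * (w.re - u') ≤ |c' - c| * r := by
      refine (le_abs_self _).trans ?_
      rw [abs_mul]
      exact mul_le_mul_of_nonneg_left (by linarith) (abs_nonneg _)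
    have e4 : -(c * (u' - u)) ≤ |c| * |u' - u| := by
      rw [← abs_mul]
      exact neg_le_abs _
    have e5 : δ * (c₀ * r) ≤ δ * w.im := mul_le_mul_of_nonneg_left h2' hδ
    linarith

end Vale.Agent.P097.H929
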