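import Vale.Agent.P097.H929.Thin2

/-! # P097 / row (THIN), part 3: the thin layer -/

set_option linter.all false

open scoped ComplexConjugate Topology
open Filter Metric Set Complex

namespace Vale.Agent.P097.H929

open Vale.Agent.P097.H85

/-- very negative slopes are regular -/
theorem base_reg {M : Set (ℂ × ℂ)} {b m : ℝ} {Ψ : ℂ → ℂ} {A : Set ℝ} {P : ℝ → ℂ} {c k : ℝ → ℝ}
    (hU : CmpU M b m Ψ A P c k) : ∃ s : ℝ, ∀ y u : ℝ, RegB M b A P c y u s := by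
  obtain ⟨S, hS⟩ := hU.bd
  refine ⟨-S - 1, fun y u => ⟨1, one_pos, fun c₂ hc₂ Λ₂ => ?_⟩⟩
  obtain ⟨ρ, hρ, hC⟩ := hU.cmp c₂ hc₂ (c₂ / 4) (by positivity)
  refine ⟨ρ, hρ, fun u' hu' _ y' _ r' hr' hr'ρ => ?_⟩
  rintro ⟨t, w⟩ ⟨h1, h2, h3, h4, h5, h6⟩
  simp only at h1 h2 h3 h4 h5 h6
  have hw : 0 < w.im := lt_of_lt_of_le (by positivity) h2
  have h4' : c₂ * |w.re - u'| ≤ w.im := (mul_le_mul_of_nonneg_left h1 hc₂.le).trans h2
  have hCu := hC u' hu'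
  obtain ⟨n1, n2⟩ := hCu.re_im (by positivity) (r := r') (by linarith) hw (by linarith) h4' h1 h3
  apply hCu.base t w (by linarith) hw (by linarith) h5
  have e1 := (abs_le.1 n2).1
  have e2 : 2 * (c₂ / 4) * r' ≤ w.im / 2 := by linarith
  have hk := (abs_le.1 (hS u' hu').2).1
  have e3 : (-S - 1) * w.im ≤ (k u' - 1) * w.im :=
    mul_le_mul_of_nonneg_right (by linarith) hw.le
  have e4 : (k u' - 1) * w.im = k u' * w.im - w.im := by ring
  linarith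

/-- the generic point of the drop -/
theorem generic_pt {A : Set ℝ} (hA : IsCompact A) (hne : A.Nonempty) {y₁ y₂ : ℝ} (hy : y₁ < y₂)
    {R : ℚ → Set (ℝ × ℝ)} (hR : ∀ q, ∀ p ∈ R q, ∃ d > 0, ∀ p' : ℝ × ℝ, |p'.1 - p.1| < d →
      |p'.2 - p.2| < d → p' ∈ R q) :
    ∃ p : ℝ × ℝ, (y₁ < p.1 ∧ p.1 < y₂) ∧ p.2 ∈ A ∧ ∀ q, p ∉ R q → ∃ d > 0, ∀ p' : ℝ × ℝ,
      |p'.1 - p.1| < d → |p'.2 - p.2| < d → p'.2 ∈ A → p' ∉ R q := by
  set K : Set (ℝ × ℝ) := Icc y₁ y₂ ×ˢ A with hK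
  have hKc : IsCompact K := isCompact_Icc.prod hA
  haveI : CompactSpace K := isCompact_iff_compactSpace.mp hKc
  have hopen : ∀ q, IsOpen {p : K | (p : ℝ × ℝ) ∈ R q} := by
    intro q
    rw [Metric.isOpen_iff]
    rintro p hp
    obtain ⟨d, hd, h⟩ := hR q p hp
    refine ⟨d, hd, fun p' hp' => ?_⟩
    have h1 : dist (p' : ℝ × ℝ) (p : ℝ × ℝ) < d := hp'
    rw [Prod.dist_eq, max_lt_iff, Real.dist_eq, Real.dist_eq] at h1
    exact h p' h1.1 h1.2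
  have hd := dense_iInter_of_isOpen (X := K)
    (f := fun q : ℚ => (frontier {p : K | (p : ℝ × ℝ) ∈ R q}ᶜ)ᶜ)
    (fun q => isClosed_frontier.isOpen_compl)
    (fun q => by
      rw [← interior_eq_empty_iff_dense_compl]
      exact interior_frontier (hopen q).isClosed_compl)
  have hU : IsOpen {p : K | y₁ < (p : ℝ × ℝ).1 ∧ (p : ℝ × ℝ).1 < y₂} := by
    have h1 : IsOpen {p : K | y₁ < (p : ℝ × ℝ).1} :=
      isOpen_lt continuous_const (continuous_fst.comp continuous_subtype_val)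
    have h2 : IsOpen {p : K | (p : ℝ × ℝ).1 < y₂} :=
      isOpen_lt (continuous_fst.comp continuous_subtype_val) continuous_const
    exact h1.inter h2
  obtain ⟨a, ha⟩ := hne
  have hUne : {p : K | y₁ < (p : ℝ × ℝ).1 ∧ (p : ℝ × ℝ).1 < y₂}.Nonempty := by
    refine ⟨⟨((y₁ + y₂) / 2, a), ⟨⟨by simp; linarith, by simp; linarith⟩, ha⟩⟩, ?_, ?_⟩
    · show y₁ < (y₁ + y₂) / 2
      linarith
    · show (y₁ + y₂) / 2 < y₂
      linarith
  obtain ⟨p, hpU, hpD⟩ := hd.inter_open_nonempty _ hU hUne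
  refine ⟨p, hpU, p.2.2, fun q hq => ?_⟩
  have h1 := mem_iInter.1 hpD q
  have h2 : p ∈ {p : K | (p : ℝ × ℝ) ∈ R q}ᶜ := hq
  have h3 : p ∈ interior {p : K | (p : ℝ × ℝ) ∈ R q}ᶜ := by
    by_contra hcon
    exact h1 ⟨subset_closure h2, hcon⟩
  obtain ⟨d, hd, h⟩ := Metric.mem_nhds_iff.1 (mem_interior_iff_mem_nhds.1 h3)
  refine ⟨min d (min ((p : ℝ × ℝ).1 - y₁) (y₂ - (p : ℝ × ℝ).1)), ?_, ?_⟩
  · refine lt_min hd (lt_min ?_ ?_)
    · linarith [hpU.1]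
    · linarith [hpU.2]
  · intro p' h1 h2 h3 h4
    have g1 := lt_min_iff.1 h1
    have g2 := lt_min_iff.1 g1.2
    have g3 := abs_lt.1 g2.1
    have g4 := abs_lt.1 g2.2
    have g5 : p' ∈ K := ⟨⟨by linarith, by linarith⟩, h3⟩
    have g6 : (⟨p', g5⟩ : K) ∈ ball p d := by
      show dist p' (p : ℝ × ℝ) < d
      rw [Prod.dist_eq, max_lt_iff, Real.dist_eq, Real.dist_eq]
      exact ⟨g1.1, (lt_min_iff.1 h2).1⟩
    exact h g6 h4

/-- the ball over the edge of slope `σ` contains one over the edge of slope `σ - 4 δ` -/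
theorem bump_of {M : Set (ℂ × ℂ)} {b m u R₀ cu σ σ' yc c₀ x₀ h η δ : ℝ} (hσ : σ' = σ - 4 * δ)
    (hδ : 0 < δ) (hη : 0 < η) (hη1 : η ≤ 1) (hh : 0 < h) (hx : |x₀ - u| ≤ h / 2)
    (hc₀ : c₀ ≤ 1 / 4) (hδη : 6 * δ ≤ η / 2) (hmb : 4 * h ≤ m - b)
    (hball : ∀ t w : ℂ, w.im = h → |w.re - x₀| < η * h →
        |t.re - (yc - cu * h + σ * (w.re - u))| < η * h → b < t.im →
        t.im < R₀ + cu * (w.re - u) + σ * h + η * h → (t, w) ∈ M) :
    Bump M b m u R₀ cu σ' yc (4 * h) c₀ x₀ h (η / 2) := by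
  have hch : c₀ * (4 * h) ≤ 1 / 4 * (4 * h) := mul_le_mul_of_nonneg_right hc₀ (by positivity)
  refine ⟨by positivity, by linarith, hh, hx, by linarith, le_refl _, hmb, ?_⟩
  intro t w h1 h2 h3 h4 h5
  rw [hσ] at h3 h5
  have hηhh : η / 2 * h ≤ h := by nlinarith
  have hwu : |w.re - u| ≤ 3 / 2 * h := by
    have := abs_sub_le w.re x₀ u
    linarith
  have hδh : 6 * δ * h ≤ η / 2 * h := mul_le_mul_of_nonneg_right hδη hh.le
  have hηh : 0 < η * h := by positivity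
  apply hball t w h1 (by linarith) _ h4 _
  · have e2 : t.re - (yc - cu * h + σ * (w.re - u)) =
      (t.re - (yc - cu * h + (σ - 4 * δ) * (w.re - u))) - 4 * δ * (w.re - u) := by ring
    rw [e2]
    have e3 := abs_sub (t.re - (yc - cu * h + (σ - 4 * δ) * (w.re - u))) (4 * δ * (w.re - u))
    have e4 : |4 * δ * (w.re - u)| ≤ 6 * δ * h := by
      rw [abs_mul, abs_of_pos (by positivity : 0 < 4 * δ)]
      have := mul_le_mul_of_nonneg_left hwu (by positivity : 0 ≤ 4 * δ)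
      linarith
    linarith
  · have e3 : (σ - 4 * δ) * h = σ * h - 4 * (δ * h) := by ring
    have e4 : 0 < δ * h := by positivity
    rw [e3] at h5
    linarith

/-- the slope budget -/
theorem slope_bd {σ δ γ : ℝ} (hδ : δ = γ / 16) (hγ0 : 0 < γ) (hγ : γ ≤ 1 / 2) :
    |σ - 4 * δ + γ| ≤ |σ| + 1 := by
  have e1 : σ - 4 * δ + γ = σ + (γ - 4 * δ) := by ring
  rw [e1]
  have e2 := abs_add_le σ (γ - 4 * δ)
  have e3 : |γ - 4 * δ| ≤ 1 := by
    rw [abs_le]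
    constructor
    · rw [hδ]; linarith
    · rw [hδ]; linarith
  linarith

/-- one ball over the edge of slope `σ` gives regularity of a steeper slope near it -/
theorem touch_reg {M : Set (ℂ × ℂ)} {b m : ℝ} {Ψ : ℂ → ℂ} {A : Set ℝ} {P : ℝ → ℂ} {c k : ℝ → ℝ}
    (hM : RH b M) (hU : CmpU M b m Ψ A P c k) (hbm : b < m)
    (hR : ContinuousOn (fun u => (P u).im) A) (hc : ContinuousOn c A) {y₀ u₀ σ : ℝ}
    (hreg : ∀ δ > 0, RegB M b A P c y₀ u₀ (σ - δ)) {η : ℝ} (hη : 0 < η) (hη1 : η ≤ 1) :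
    ∃ d > 0, ∃ r₀ > 0, ∀ u ∈ A, |u - u₀| < d → ∀ yc : ℝ, |yc - y₀| < d → ∀ h : ℝ, 0 < h →
      h < r₀ → ∀ x₀ : ℝ, |x₀ - u| ≤ h / 2 →
      (∀ t w : ℂ, w.im = h → |w.re - x₀| < η * h →
        |t.re - (yc - c u * h + σ * (w.re - u))| < η * h → b < t.im →
        t.im < (P u).im + c u * (w.re - u) + σ * h + η * h → (t, w) ∈ M) →
      RegB M b A P c yc u (σ + η ^ 3 / 2000000) := by
  obtain ⟨S, hS⟩ := hU.bd
  set S' : ℝ := |S| with hS'
  have hS'0 : 0 ≤ S' := abs_nonneg _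
  have hSc : ∀ u ∈ A, |c u| ≤ S' ∧ |k u| ≤ S' :=
    fun u hu => ⟨(hS u hu).1.trans (le_abs_self _), (hS u hu).2.trans (le_abs_self _)⟩
  have hη3 : 0 < η ^ 3 := by positivity
  have hη31 : η ^ 3 ≤ η := by
    have e1 : η ^ 2 ≤ 1 := by nlinarith
    have e2 : η ^ 2 * η ≤ 1 * η := mul_le_mul_of_nonneg_right e1 hη.le
    linarith
  set γ : ℝ := (η / 2) ^ 3 / 80000 with hγ
  have hγ' : γ = η ^ 3 / 640000 := by rw [hγ]; ring
  have hγ0 : 0 < γ := by positivity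
  set δ : ℝ := γ / 16 with hδ
  have hδ0 : 0 < δ := by positivity
  obtain ⟨cb, hcb, Λb, hsp⟩ := spread hM hU hbm hR hc hδ0 (by positivity : 0 ≤ |σ| + 1)
  set T : ℝ := |σ| + 1 + S' with hT
  have hT0 : 0 < T := by positivity
  set c₀ : ℝ := min cb (min (1 / 4) (δ / T)) with hc₀
  have hc₀0 : 0 < c₀ := by positivity
  have hc₀cb : c₀ ≤ cb := min_le_left _ _
  have hc₀4 : c₀ ≤ 1 / 4 := (min_le_right _ _).trans (min_le_left _ _)
  have hc₀T : T * c₀ ≤ δ := by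
    have h1 : c₀ ≤ δ / T := (min_le_right _ _).trans (min_le_right _ _)
    rw [le_div_iff₀ hT0] at h1
    linarith
  set Λ : ℝ := max Λb (2 + 2 * S' + T + 4 * δ) with hΛ
  have hΛb : Λb ≤ Λ := le_max_left _ _
  have hΛ2 : 2 + 2 * S' + T + 4 * δ ≤ Λ := le_max_right _ _
  have hΛ0 : 0 < Λ := by linarith
  obtain ⟨ρ₀, hρ₀, hsp⟩ := hsp c₀ hc₀0 hc₀cb Λ hΛb
  set ε : ℝ := min (1 / 4) (δ * c₀ / 8) with hε
  have hε0 : 0 < ε := by positivity
  have hε4 : ε ≤ 1 / 4 := min_le_left _ _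
  have hε8 : 8 * ε ≤ δ * c₀ := by
    have : ε ≤ δ * c₀ / 8 := min_le_right _ _
    linarith
  obtain ⟨ρ, hρ, hCmp⟩ := hU.cmp c₀ hc₀0 ε hε0
  obtain ⟨d, hd, hrg⟩ := hreg δ hδ0
  obtain ⟨r₁, hr₁, hrg⟩ := hrg c₀ hc₀0 Λ
  have hmb : 0 < m - b := by linarith
  set r₀ : ℝ := min (min (ρ / 4) (r₁ / 4)) (min ((m - b) / 4) ((m - b) / (64 * (T + 2 * δ))))
    with hr₀
  have hr₀0 : 0 < r₀ := by positivity
  refine ⟨d, hd, r₀, hr₀0, fun u hu hud yc hyc h hh hhr x₀ hx hball => ?_⟩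
  have g1 : h < ρ / 4 := hhr.trans_le ((min_le_left _ _).trans (min_le_left _ _))
  have g2 : h < r₁ / 4 := hhr.trans_le ((min_le_left _ _).trans (min_le_right _ _))
  have g3 : h < (m - b) / 4 := hhr.trans_le ((min_le_right _ _).trans (min_le_left _ _))
  have g4 : (T + 2 * δ) * (4 * h) ≤ (m - b) / 16 := by
    have : h < (m - b) / (64 * (T + 2 * δ)) :=
      hhr.trans_le ((min_le_right _ _).trans (min_le_right _ _))
    rw [lt_div_iff₀ (by positivity)] at this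
    linarith
  have hcu := (hSc u hu).1
  have hku := (hSc u hu).2
  have hδs : δ ≤ 1 / 16 := by rw [hδ, hγ']; linarith
  have hδη : 6 * δ ≤ η / 2 := by rw [hδ, hγ']; linarith
  set s₁ : ℝ := σ - 4 * δ - k u with hs₁
  have hks : k u + s₁ = σ - 4 * δ := by rw [hs₁]; ring
  have hs₁T : |s₁| ≤ T := by
    have e1 : |σ - 4 * δ - k u| ≤ |σ - 4 * δ| + |k u| := abs_sub _ _
    have e2 : |σ - 4 * δ| ≤ |σ| + |4 * δ| := abs_sub _ _
    rw [abs_of_pos (by positivity : 0 < 4 * δ)] at e2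
    rw [hs₁, hT]
    linarith
  have hwin := hrg u hu hud yc hyc (4 * h) (by positivity) (by linarith)
  have e1 : σ - δ = k u + s₁ + 3 * δ := by rw [hks]; ring
  rw [e1] at hwin
  have hB : Bump M b m u (P u).im (c u) (k u + s₁) yc (4 * h) c₀ x₀ h (η / 2) :=
    bump_of hks hδ0 hη hη1 hh hx hc₀4 hδη (by linarith) hball
  set r' : ℝ := min (ρ₀ / 2) (min (η / 2 * h / (128 * Λ)) (c₀ * (4 * h) / 8)) with hr'
  have hr'0 : 0 < r' := by positivity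
  have q1 : r' < ρ₀ := (min_le_left _ _).trans_lt (by linarith)
  have q2 : 128 * (Λ * r') ≤ η / 2 * h := by
    have : r' ≤ η / 2 * h / (128 * Λ) := (min_le_right _ _).trans (min_le_left _ _)
    rw [le_div_iff₀ (by positivity)] at this
    linarith
  have q3 : 8 * r' ≤ c₀ * (4 * h) := by
    have : r' ≤ c₀ * (4 * h) / 8 := (min_le_right _ _).trans (min_le_right _ _)
    linarith
  have hres := touch hM (hCmp u hu) hbm hδ0 hc₀0 (by linarith) hε0.le hε8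
    ((mul_le_mul_of_nonneg_right hs₁T hc₀0.le).trans hc₀T) (by linarith)
    (by positivity : 0 < 4 * h) (by linarith)
    ((mul_le_mul_of_nonneg_right (by linarith) (by positivity)).trans g4) hwin hB
    (by simp; positivity) (by
      have : (η / 2) ^ 3 = 80000 * γ := by rw [hγ]; ring
      rw [this, hδ]; linarith) (y' := yc) (r' := r') (by simp; positivity) hr'0 q2 q3
  rw [hks, ← hγ] at hres
  have hsl : |σ - 4 * δ + γ| ≤ |σ| + 1 := slope_bd hδ hγ0 (by rw [hγ']; linarith)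
  have hfin := hsp (σ - 4 * δ + γ) hsl u hu yc r' hr'0 q1 hres
  refine hfin.mono ?_
  rw [hδ, hγ']
  linarith

/-- **The thin layer.** -/
theorem thin {M : Set (ℂ × ℂ)} {b m : ℝ} {Ψ : ℂ → ℂ} {A : Set ℝ} {P : ℝ → ℂ} {c k : ℝ → ℝ}
    (hM : RH b M) (hU : CmpU M b m Ψ A P c k) (hbm : b < m) (hA : IsCompact A)
    (hne : A.Nonempty) (hR : ContinuousOn (fun u => (P u).im) A) (hc : ContinuousOn c A)
    {y₁ y₂ : ℝ} (hy : y₁ < y₂) {s' c' Λ' r' : ℝ} (hc' : 0 < c') (hr' : 0 < r')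
    (hdrop : ∀ u ∈ A, ∀ y : ℝ, y₁ < y → y < y₂ → ∀ r : ℝ, 0 < r → r < r' →
      ¬ Win b u (P u).im (c u) y r s' c' Λ' ⊆ M) :
    ∃ y₀ u₀ σ : ℝ, y₁ < y₀ ∧ y₀ < y₂ ∧ u₀ ∈ A ∧ σ ≤ s' ∧
      (∀ δ > 0, RegB M b A P c y₀ u₀ (σ - δ)) ∧
      ∀ η : ℝ, 0 < η → η ≤ 1 → ∃ d > 0, ∃ r₀ > 0, ∀ u ∈ A, |u - u₀| < d → ∀ yc : ℝ,
        |yc - y₀| < d → ∀ h : ℝ, 0 < h → h < r₀ → ∀ x₀ : ℝ, |x₀ - u| ≤ h / 2 →
        ∃ t w : ℂ, w.im = h ∧ |w.re - x₀| < η * h ∧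
          |t.re - (yc - c u * h + σ * (w.re - u))| < η * h ∧ b < t.im ∧
          t.im < (P u).im + c u * (w.re - u) + σ * h + η * h ∧ (t, w) ∉ M := by
  obtain ⟨⟨y₀, u₀⟩, ⟨hy1, hy2⟩, hu₀, hgen⟩ := generic_pt hA hne hy
    (R := fun q : ℚ => {p : ℝ × ℝ | RegB M b A P c p.1 p.2 q}) (by
      intro q p hp
      obtain ⟨d, hd, h⟩ := RegB.nhd hp
      exact ⟨d, hd, fun p' h1 h2 => h p'.2 p'.1 h2 h1⟩)
  simp only at hy1 hy2 hu₀ hgen
  have hub : ∀ s : ℝ, RegB M b A P c y₀ u₀ s → s ≤ s' := by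
    intro s hs
    by_contra hcon
    push Not at hcon
    obtain ⟨d, hd, h⟩ := hs
    obtain ⟨r₀, hr₀, h⟩ := h c' hc' Λ'
    have h1 := h u₀ hu₀ (by simpa using hd) y₀ (by simpa using hd) (min r₀ r' / 2) (by positivity)
      (by have := min_le_left r₀ r'; have : 0 < min r₀ r' := by positivity
          linarith)
    apply hdrop u₀ hu₀ y₀ hy1 hy2 (min r₀ r' / 2) (by positivity)
      (by have := min_le_right r₀ r'; have : 0 < min r₀ r' := by positivity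
          linarith)
    exact (win_mono (le_refl _) (le_refl _) hcon.le (by positivity) hc').trans h1
  obtain ⟨sb, hsb⟩ := base_reg hU
  set σ : ℝ := sSup {s : ℝ | RegB M b A P c y₀ u₀ s} with hσ
  have hbdd : BddAbove {s : ℝ | RegB M b A P c y₀ u₀ s} := ⟨s', hub⟩
  have hnes : {s : ℝ | RegB M b A P c y₀ u₀ s}.Nonempty := ⟨sb, hsb y₀ u₀⟩
  have hreg : ∀ δ > 0, RegB M b A P c y₀ u₀ (σ - δ) := by
    intro δ hδ
    obtain ⟨s, hs, hs'⟩ := exists_lt_of_lt_csSup hnes (show σ - δ < σ by linarith)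
    exact RegB.mono hs hs'.le
  refine ⟨y₀, u₀, σ, hy1, hy2, hu₀, csSup_le hnes hub, hreg, ?_⟩
  intro η hη hη1
  obtain ⟨d, hd, r₀, hr₀, htr⟩ := touch_reg hM hU hbm hR hc hreg hη hη1
  have hγ : 0 < η ^ 3 / 2000000 := by positivity
  obtain ⟨q, hq1, hq2⟩ := exists_rat_btwn (show σ < σ + η ^ 3 / 2000000 by linarith)
  have hnq : ¬ RegB M b A P c y₀ u₀ q := fun h => by
    have := le_csSup hbdd h
    linarith
  obtain ⟨d', hd', hnear⟩ := hgen q hnq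
  refine ⟨min d d', by positivity, r₀, hr₀, fun u hu hud yc hyc h hh hhr x₀ hx => ?_⟩
  by_contra hcon
  push Not at hcon
  have h1 := htr u hu (hud.trans_le (min_le_left _ _)) yc (hyc.trans_le (min_le_left _ _)) h hh hhr
    x₀ hx (fun t w a1 a2 a3 a4 a5 => hcon t w a1 a2 a3 a4 a5)
  exact hnear (yc, u) (hyc.trans_le (min_le_right _ _)) (hud.trans_le (min_le_right _ _)) hu
    (h1.mono hq2.le)

end Vale.Agent.P097.H929
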