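import Vale.Agent.P097.H929.Ker

/-! # P097 / row (TOUCH), part 2: a ball over one point of a Levi flat edge gives steeper windows -/

set_option linter.all false

open scoped ComplexConjugate Topology
open Filter Metric Set Complex

namespace Vale.Agent.P097.H929

open Vale.Agent.P097.H85

/-- finer real part of the comparison function -/
theorem cmp_re {M : Set (ℂ × ℂ)} {b m : ℝ} {Ψ : ℂ → ℂ} {u ρ : ℝ} {P₀ : ℂ} {c k c₀ ε : ℝ}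
    (h : Cmp M b m Ψ u ρ P₀ c k c₀ ε) (hε : 0 ≤ ε) {w : ℂ} {r : ℝ} (h1 : |w.re - u| < ρ)
    (h2 : 0 < w.im) (h3 : w.im < ρ) (h4 : c₀ * |w.re - u| ≤ w.im) (h5 : |w.re - u| ≤ r)
    (h6 : w.im ≤ r) :
    |(Ψ w).re - P₀.re - (k * (w.re - u) - c * w.im)| ≤ 2 * ε * r := by
  have hn := h.nt w h1 h2 h3 h4
  have hn2 : ‖w - u‖ ≤ 2 * r := norm_le_two h5 (by rwa [abs_of_pos h2])
  have hn3 : ε * ‖w - u‖ ≤ 2 * ε * r := by nlinarith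
  have e1 := (Complex.abs_re_le_norm (Ψ w - P₀ - (I * c + k) * (w - u))).trans (hn.trans hn3)
  simp only [sub_re, mul_re, add_re, I_re, ofReal_re, zero_mul, I_im, ofReal_im, mul_zero,
    sub_self, zero_add, sub_im, add_im, mul_im, one_mul, add_zero, sub_zero] at e1
  have e : (Ψ w).re - P₀.re - (k * (w.re - u) - c * w.im) =
      (Ψ w).re - P₀.re - (k * (w.re - u) - c * w.im) := rfl
  exact e1

/-- data of the bump -/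
structure Bump (M : Set (ℂ × ℂ)) (b m u R₀ c σ y r c₀ x₀ h η : ℝ) : Prop where
  hη : 0 < η
  hη1 : η ≤ 1
  hh : 0 < h
  hx : |x₀ - u| ≤ h / 2
  hc : c₀ * r ≤ h
  hr : 4 * h ≤ r
  hmb : r ≤ m - b
  ball : ∀ t w : ℂ, w.im = h → |w.re - x₀| < η * h →
    |t.re - (y - c * h + σ * (w.re - u))| < η * h → b < t.im →
    t.im < R₀ + c * (w.re - u) + σ * h + η * h → (t, w) ∈ M

/-- the part of the upper side over the ball -/
theorem ball_pt {M : Set (ℂ × ℂ)} {b m : ℝ} {Ψ : ℂ → ℂ} {u ρ : ℝ} {P₀ : ℂ} {c k c₀ ε : ℝ}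
    (hC : Cmp M b m Ψ u ρ P₀ c k c₀ ε) {s₁ δ : ℝ} (hδ : 0 < δ)
    (hc₀ : 0 < c₀) (hε : 0 ≤ ε) (hε1 : 8 * ε ≤ δ * c₀)
    {r : ℝ} (hr : 0 < r) (hrρ : r < ρ)
    {x₀ h η yc : ℝ} (hB : Bump M b m u P₀.im c (k + s₁) yc r c₀ x₀ h η)
    (hδη : 16 * δ ≤ η) {κ e₀ : ℝ} (hκr : κ * r = 2 * δ) (hκ : 0 < κ) (he0 : 0 ≤ e₀)
    {ζ z g : ℂ} (h1 : |ζ.re - (yc - P₀.re)| < η * h / 8) (h3 : ζ.im < 0)
    (a1 : |z.re - u| ≤ r) (h9 : z.im = h) (hX : |z.re - x₀| < η * h)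
    (hgr : |g.re| ≤ η * h / 16) (hgi : |g.im| ≤ η * h / 16)
    (hb : b < (ζ + (phi Ψ u s₁ κ e₀ z + g)).im) :
    (ζ + (phi Ψ u s₁ κ e₀ z + g), z) ∈ M := by
  obtain ⟨hη, hη1, hh, hx, hch, hr4, hmb, hball⟩ := hB
  have a2 : 0 < z.im := by rw [h9]; exact hh
  have a3 : z.im ≤ r := by rw [h9]; linarith
  have hXu : |z.re - u| ≤ 3 / 2 * h := by
    have := abs_sub_le z.re x₀ u
    have : η * h ≤ h := by nlinarith
    linarith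
  have a5' : c₀ * |z.re - u| ≤ z.im := by
    have : c₀ * |z.re - u| ≤ c₀ * r := mul_le_mul_of_nonneg_left a1 hc₀.le
    linarith
  have hεr : 2 * ε * r ≤ δ * h / 4 := by
    have e3 : 8 * ε * r ≤ δ * c₀ * r := mul_le_mul_of_nonneg_right hε1 hr.le
    have e4 : δ * (c₀ * r) ≤ δ * h := mul_le_mul_of_nonneg_left hch hδ.le
    linarith
  obtain ⟨n1, n2⟩ := hC.re_im hε (r := r) (by linarith) a2 (by linarith) a5' a1 a3
  have n3 := cmp_re hC hε (r := r) (by linarith) a2 (by linarith) a5' a1 a3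
  have hδh : 16 * δ * h ≤ η * h := mul_le_mul_of_nonneg_right hδη hh.le
  have hδh0 : 0 < δ * h := by positivity
  have hκh4 : κ * h ≤ δ / 2 := by
    have e1 : κ * (4 * h) ≤ κ * r := mul_le_mul_of_nonneg_left hr4 hκ.le
    rw [hκr] at e1
    linarith
  apply hball _ _ h9 hX
  · rw [add_re, add_re, phi_re]
    have e1 : ζ.re + ((Ψ z).re + s₁ * (z.re - u) + 2 * κ * ((z.re - u) * z.im) +
        g.re) - (yc - c * h + (k + s₁) * (z.re - u)) =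
        (ζ.re - (yc - P₀.re)) + (((Ψ z).re - P₀.re - (k * (z.re - u) - c * z.im)) +
        (2 * κ * ((z.re - u) * z.im) + g.re)) := by
      rw [h9]; ring
    rw [e1]
    have e2 := abs_add_le (ζ.re - (yc - P₀.re)) (((Ψ z).re - P₀.re -
      (k * (z.re - u) - c * z.im)) + (2 * κ * ((z.re - u) * z.im) + g.re))
    have e3 := abs_add_le ((Ψ z).re - P₀.re -
      (k * (z.re - u) - c * z.im)) (2 * κ * ((z.re - u) * z.im) + g.re)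
    have e4 := abs_add_le (2 * κ * ((z.re - u) * z.im)) g.re
    have e6 : |2 * κ * ((z.re - u) * z.im)| ≤ 3 / 2 * (δ * h) := by
      rw [abs_mul, abs_of_pos (by positivity : 0 < 2 * κ), abs_mul, abs_of_pos a2, h9]
      have e7 : |z.re - u| * h ≤ 3 / 2 * h * h := mul_le_mul_of_nonneg_right hXu hh.le
      have e8 := mul_le_mul_of_nonneg_left e7 (by positivity : 0 ≤ 2 * κ)
      have e9 : 2 * κ * (3 / 2 * h * h) = 3 * (κ * h) * h := by ring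
      have e10 : 3 * (κ * h) * h ≤ 3 * (δ / 2) * h := by
        apply mul_le_mul_of_nonneg_right _ hh.le
        linarith
      linarith
    linarith
  · exact hb
  · rw [add_im, add_im, phi_im]
    have e1 := (abs_le.1 n2).2
    have e2 := (abs_le.1 hgi).2
    have e3 : κ * ((z.re - u) ^ 2 - z.im ^ 2) = κ * (z.re - u) ^ 2 - κ * z.im ^ 2 := by ring
    have e4 : κ * z.im ^ 2 ≤ δ * h / 2 := by
      rw [h9]
      have := mul_le_mul_of_nonneg_right hκh4 hh.le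
      have e5 : κ * h * h = κ * h ^ 2 := by ring
      linarith
    have e6 : (k + s₁) * h = k * h + s₁ * h := by ring
    have e7 : 0 ≤ κ * (z.re - u) ^ 2 := by positivity
    rw [e3, e6]
    rw [h9] at e1 e4 ⊢
    linarith

/-- off the ball the kernel is nonpositive on the upper side -/
theorem ker_top {A x₀ h η : ℝ} (hA : 0 ≤ A) (hη : 0 < η) (hη1 : η ≤ 1) (hh : 0 < h) {z : ℂ}
    (h9 : z.im = h) (hX : η * h ≤ |z.re - x₀|) :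
    (ker A x₀ (h + η ^ 2 * h / 12) z).im ≤ 0 := by
  have hηh3 : 0 < η ^ 2 * h / 12 := by positivity
  have hη2 : η ^ 2 ≤ 1 := by nlinarith
  apply ker_im_nonpos (h := h) hA hh (by linarith) (by rw [h9]; exact hh.le) h9.le
  have e3 : (η * h) ^ 2 ≤ (z.re - x₀) ^ 2 := by
    rw [← sq_abs (z.re - x₀)]
    exact pow_le_pow_left₀ (by positivity) hX 2
  rw [h9]
  have e4 : (h + η ^ 2 * h / 12) ^ 2 - h ^ 2 = (η ^ 2 * h / 12) * (2 * h + η ^ 2 * h / 12) := by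
    ring
  have e5 : (η ^ 2 * h / 12) * (2 * h + η ^ 2 * h / 12) ≤ (η ^ 2 * h / 12) * (3 * h) := by
    apply mul_le_mul_of_nonneg_left _ hηh3.le
    nlinarith
  have e6 : (η ^ 2 * h / 12) * (3 * h) = (η * h) ^ 2 / 4 := by ring
  have e7 : 0 ≤ (η * h) ^ 2 := sq_nonneg _
  linarith

/-- on the lateral sides the kernel is nonpositive -/
theorem ker_side {A x₀ h h' u r : ℝ} (hA : 0 ≤ A) (hh : 0 < h) (h1 : h < h') (h2 : h' ≤ 2 * h)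
    (hx : |x₀ - u| ≤ h / 2) (hr : 4 * h ≤ r) {z : ℂ} (hz0 : 0 ≤ z.im) (hz : z.im ≤ h)
    (h9 : |z.re - u| = r) : (ker A x₀ h' z).im ≤ 0 := by
  apply ker_im_nonpos hA hh h1 hz0 hz
  have e1 : r ≤ |z.re - x₀| + h / 2 := by
    have := abs_sub_le z.re x₀ u
    linarith
  have e2 : h' ≤ |z.re - x₀| := by linarith
  have e3 : h' ^ 2 ≤ (z.re - x₀) ^ 2 := by
    rw [← sq_abs (z.re - x₀)]
    exact pow_le_pow_left₀ (by linarith) e2 2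
  have := sq_nonneg z.im
  linarith

/-- lower part of the lateral sides -/
theorem side_low {κ r δ s₁ c₀ X Y e₀ ζi gi : ℝ} (hκ : 0 < κ) (hδ : 0 < δ) (hr : 0 < r)
    (hc₀ : 0 < c₀) (hc1 : c₀ ≤ 1 / 2)
    (hκr2 : κ * r ^ 2 = 2 * δ * r) (hs : |s₁| * c₀ ≤ δ) (hX : X ^ 2 = r ^ 2) (hY0 : 0 < Y)
    (hY : Y < c₀ * r) (he : 0 ≤ e₀) (hζ : ζi < 0) (hg : gi ≤ 0) :
    ζi + gi + s₁ * Y - κ * (X ^ 2 - Y ^ 2) - e₀ < 0 := by
  rw [hX]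
  have e0 : s₁ * Y ≤ |s₁| * Y := mul_le_mul_of_nonneg_right (le_abs_self _) hY0.le
  have e1 : |s₁| * Y ≤ |s₁| * (c₀ * r) := mul_le_mul_of_nonneg_left hY.le (abs_nonneg _)
  have e2 : (|s₁| * c₀) * r ≤ δ * r := mul_le_mul_of_nonneg_right hs hr.le
  have e3 : Y ^ 2 ≤ (c₀ * r) ^ 2 := pow_le_pow_left₀ hY0.le hY.le 2
  have e4 : (c₀ * r) ^ 2 ≤ (1 / 2 * r) ^ 2 := pow_le_pow_left₀ (by positivity)
    (mul_le_mul_of_nonneg_right hc1 hr.le) 2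
  have e5 : κ * Y ^ 2 ≤ κ * (1 / 2 * r) ^ 2 :=
    mul_le_mul_of_nonneg_left (e3.trans e4) hκ.le
  have e6 : κ * (1 / 2 * r) ^ 2 = (κ * r ^ 2) / 4 := by ring
  rw [e6, hκr2] at e5
  have e7 : κ * (r ^ 2 - Y ^ 2) = κ * r ^ 2 - κ * Y ^ 2 := by ring
  rw [e7, hκr2]
  have e8 : |s₁| * (c₀ * r) = (|s₁| * c₀) * r := by ring
  have e9 : 0 < δ * r := by positivity
  linarith

/-- what is used of the kernel -/
structure Kr (g : ℂ → ℂ) (u r h x₀ η h' : ℝ) : Prop where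
  hh : h < h'
  diff : DifferentiableOn ℂ g {z | -h' < z.im ∧ z.im < h'}
  re : ∀ z : ℂ, 0 ≤ z.im → z.im ≤ h → |(g z).re| ≤ η * h / 16
  im : ∀ z : ℂ, 0 ≤ z.im → z.im ≤ h → |(g z).im| ≤ η * h / 16
  side : ∀ z : ℂ, 0 ≤ z.im → z.im ≤ h → |z.re - u| = r → (g z).im ≤ 0
  bot : ∀ z : ℂ, 0 ≤ z.im → z.im ≤ h → (g z).im ≤ 1 / η * z.im
  top : ∀ z : ℂ, z.im = h → η * h ≤ |z.re - x₀| → (g z).im ≤ 0
  low : ∀ z : ℂ, 0 ≤ z.im → |z.re - u| ≤ h / 8 → z.im ≤ h / 8 →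
    2 * (η ^ 3 / 80000) * z.im ≤ (g z).im

theorem kr_ker {u r h x₀ η : ℝ} (hη : 0 < η) (hη1 : η ≤ 1) (hh : 0 < h)
    (hx : |x₀ - u| ≤ h / 2) (hr : 4 * h ≤ r) :
    Kr (ker (η ^ 3 * h ^ 2 / 384) x₀ (h + η ^ 2 * h / 12)) u r h x₀ η (h + η ^ 2 * h / 12) := by
  have hηh3 : 0 < η ^ 2 * h / 12 := by positivity
  have hη2 : η ^ 2 ≤ 1 := by nlinarith
  have hh'1 : h < h + η ^ 2 * h / 12 := by linarith
  have hh'2 : h + η ^ 2 * h / 12 ≤ 2 * h := by nlinarith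
  have hA0 : 0 ≤ η ^ 3 * h ^ 2 / 384 := by positivity
  have hG : 2 * (η ^ 3 * h ^ 2 / 384) / (h + η ^ 2 * h / 12 - h) = η * h / 16 := by
    field_simp
    ring
  have hCg : 2 * (η ^ 3 * h ^ 2 / 384) / (h + η ^ 2 * h / 12 - h) ^ 2 = 3 / 4 / η := by
    field_simp
    ring
  refine ⟨hh'1, ker_diff _ _ _, ?_, ?_, ?_, ?_, ?_, ?_⟩
  · intro z h1 h2
    have := ker_norm (x₀ := x₀) hA0 hh hh'1 h1 h2
    rw [hG] at this
    exact (Complex.abs_re_le_norm _).trans this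
  · intro z h1 h2
    have := ker_norm (x₀ := x₀) hA0 hh hh'1 h1 h2
    rw [hG] at this
    exact (Complex.abs_im_le_norm _).trans this
  · intro z h1 h2 h9
    exact ker_side hA0 hh hh'1 hh'2 hx hr h1 h2 h9
  · intro z h1 h2
    have e8 := ker_im_le (x₀ := x₀) hA0 hh hh'1 h1 h2
    rw [hCg] at e8
    refine e8.trans (mul_le_mul_of_nonneg_right ?_ h1)
    apply div_le_div_of_nonneg_right _ hη.le
    norm_num
  · intro z h9 hX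
    exact ker_top hA0 hη hη1 hh h9 hX
  · intro z h1 h2 h3
    have e8 := ker_low (x₀ := x₀) hA0 hh hh'1 hh'2 hx h1 h2 h3
    have e9 : η ^ 3 * h ^ 2 / 384 / (98 * h ^ 2) = η ^ 3 / 37632 := by
      field_simp
      norm_num
    rw [e9] at e8
    refine le_trans (mul_le_mul_of_nonneg_right ?_ h1) e8
    have : 0 < η ^ 3 := by positivity
    linarith

theorem g_above {b m : ℝ} {Ψ : ℂ → ℂ} {u : ℝ} {s₁ δ r κ e₀ : ℝ} (hδ : 0 < δ)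
    (hr : 0 < r) (hr1 : (|s₁| + 2 * δ) * r ≤ (m - b) / 16) (hmb : r ≤ m - b)
    (he2 : e₀ < (m - b) / 32) {ζ z g : ℂ} (hb : m ≤ (Ψ z).im) (hg : |g.im| ≤ r / 64)
    (a4 : κ * (z.re - u) ^ 2 ≤ 2 * δ * r) (a7 : 0 ≤ κ * z.im ^ 2) (a9 : -(|s₁| * r) ≤ s₁ * z.im)
    (hζ : -((m - b) / 4) < ζ.im) :
    b < ((ζ + g) + phi Ψ u s₁ κ e₀ z).im := by
  have hdist : (|s₁| + 2 * δ) * r = |s₁| * r + 2 * δ * r := by ring
  have hg := (abs_le.1 hg).1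
  have e3 : κ * ((z.re - u) ^ 2 - z.im ^ 2) = κ * (z.re - u) ^ 2 - κ * z.im ^ 2 := by ring
  rw [add_im, add_im, phi_im, e3]
  linarith

/-- base points -/
theorem g_base {M : Set (ℂ × ℂ)} {b m : ℝ} {Ψ : ℂ → ℂ} {u ρ : ℝ} {P₀ : ℂ} {c k c₀ ε : ℝ}
    (hC : Cmp M b m Ψ u ρ P₀ c k c₀ ε) {s₁ κ e₀ : ℝ} {ζ z g : ℂ} (h1 : |z.re - u| < ρ)
    (h2 : 0 < z.im) (h3 : z.im < ρ) (hb : b < ((ζ + g) + phi Ψ u s₁ κ e₀ z).im)
    (hlt : ζ.im + g.im + s₁ * z.im - κ * ((z.re - u) ^ 2 - z.im ^ 2) - e₀ < 0) :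
    (ζ + (phi Ψ u s₁ κ e₀ z + g), z) ∈ M := by
  have hsum : ζ + (phi Ψ u s₁ κ e₀ z + g) = (ζ + g) + phi Ψ u s₁ κ e₀ z := by ring
  rw [hsum]
  apply hC.base _ _ h1 h2 h3 hb
  rw [add_im, add_im, phi_im]
  linarith

/-- window points -/
theorem g_win {M : Set (ℂ × ℂ)} {b m : ℝ} {Ψ : ℂ → ℂ} {u ρ : ℝ} {P₀ : ℂ} {c k c₀ ε : ℝ}
    (hC : Cmp M b m Ψ u ρ P₀ c k c₀ ε) {s₁ δ Λ κ e₀ : ℝ} (hδ : 0 < δ) (hc₀ : 0 < c₀)
    (hc1 : c₀ ≤ 1 / 2) (hε : 0 ≤ ε) (hε1 : 8 * ε ≤ δ * c₀)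
    (hΛ : 1 + |c| + |k| + 2 * ε + |s₁| + 4 * δ ≤ Λ) {r : ℝ} (hr : 0 < r) (hrρ : r < ρ)
    (hκr : κ * r = 2 * δ) (hκ : 0 < κ) (he0 : 0 ≤ e₀) {y yc : ℝ}
    (hwin : Win b u P₀.im c y r (k + s₁ + 3 * δ) c₀ Λ ⊆ M) (hyc : |yc - y| ≤ r / 4)
    {ζ z g : ℂ} (hζ1 : |ζ.re - (yc - P₀.re)| < r / 4) (hζ3 : ζ.im < 0) (hgr : |g.re| ≤ r / 4)
    (hgi : g.im ≤ 0) (a1 : |z.re - u| ≤ r) (a2 : 0 < z.im)
    (a3 : z.im ≤ r) (hz1 : c₀ * r ≤ z.im)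
    (hz2 : κ * z.im ^ 2 - κ * (z.re - u) ^ 2 ≤ 2 * δ * z.im)
    (hb : b < ((ζ + g) + phi Ψ u s₁ κ e₀ z).im) :
    (ζ + (phi Ψ u s₁ κ e₀ z + g), z) ∈ M := by
  have hsum : ζ + (phi Ψ u s₁ κ e₀ z + g) = (ζ + g) + phi Ψ u s₁ κ e₀ z := by ring
  rw [hsum]
  apply hwin
  apply mem_win hC hδ hc₀ hc1 hε hε1 hΛ hr hrρ hκr hκ he0 _ _ a1 a2 a3 hz1 hz2 hb
  · rw [add_re]
    have e1 : ζ.re + g.re - (y - P₀.re) =
      (ζ.re - (yc - P₀.re)) + ((yc - y) + g.re) := by ring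
    rw [e1]
    have e2 := abs_add_le (ζ.re - (yc - P₀.re)) ((yc - y) + g.re)
    have e3 := abs_add_le (yc - y) g.re
    linarith
  · rw [add_im]; linarith

/-- the Hartogs figure of the bump lemma -/
theorem bump_core {M : Set (ℂ × ℂ)} {b m : ℝ} {Ψ : ℂ → ℂ} {u ρ : ℝ} {P₀ : ℂ} {c k c₀ ε : ℝ}
    (hM : RH b M) (hC : Cmp M b m Ψ u ρ P₀ c k c₀ ε) {s₁ δ Λ : ℝ} (hbm : b < m) (hδ : 0 < δ)
    (hc₀ : 0 < c₀) (hc1 : c₀ ≤ 1 / 2) (hε : 0 ≤ ε) (hε1 : 8 * ε ≤ δ * c₀) (hs : |s₁| * c₀ ≤ δ)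
    (hΛ : 1 + |c| + |k| + 2 * ε + |s₁| + 4 * δ ≤ Λ) {r : ℝ} (hr : 0 < r)
    (hrρ : r < ρ) (hr1 : (|s₁| + 2 * δ) * r ≤ (m - b) / 16) {y : ℝ}
    (hwin : Win b u P₀.im c y r (k + s₁ + 3 * δ) c₀ Λ ⊆ M)
    {x₀ h η yc : ℝ} (hB : Bump M b m u P₀.im c (k + s₁) yc r c₀ x₀ h η) (hyc : |yc - y| ≤ r / 4)
    (hδη : 16 * δ ≤ η) {g : ℂ → ℂ} {h' : ℝ} (hg : Kr g u r h x₀ η h')
    {κ η₀ e₀ : ℝ} (hκr : κ * r = 2 * δ) (hκ : 0 < κ) (hη₀ : 0 < η₀)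
    (he0 : |s₁| * η₀ + κ * η₀ ^ 2 + 1 / η * η₀ ≤ e₀) (he2 : e₀ < (m - b) / 32)
    {ζ : ℂ} (h1 : |ζ.re - (yc - P₀.re)| < η * h / 8) (h2 : -((m - b) / 4) < ζ.im) (h3 : ζ.im < 0)
    {w : ℂ} (hw : w ∈ Ro (u - r) (u + r) η₀ h) :
    (ζ + (phi Ψ u s₁ κ e₀ w + g w), w) ∈ M := by
  have hη := hB.hη
  have hη1 := hB.hη1
  have hh := hB.hh
  have hch := hB.hc
  have hr4 := hB.hr
  have hmb := hB.hmb
  have hκr2 : κ * r ^ 2 = 2 * δ * r := by rw [pow_two, ← mul_assoc, hκr]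
  have hη₀2 : 0 ≤ |s₁| * η₀ + κ * η₀ ^ 2 + 1 / η * η₀ := by positivity
  have he0' : 0 ≤ e₀ := hη₀2.trans he0
  have hηhh : η * h ≤ h := by nlinarith
  have hGr : η * h / 16 ≤ r / 64 := by linarith
  have hRR : ∀ z ∈ Rc (u - r) (u + r) η₀ h, (|z.re - u| ≤ r ∧ 0 < z.im ∧ z.im ≤ r) ∧
      (κ * (z.re - u) ^ 2 ≤ 2 * δ * r ∧ 0 ≤ κ * (z.re - u) ^ 2) ∧
      (κ * z.im ^ 2 ≤ 2 * δ * r ∧ 0 ≤ κ * z.im ^ 2) ∧
      (s₁ * z.im ≤ |s₁| * z.im ∧ -(|s₁| * r) ≤ s₁ * z.im) ∧ |s₁| * z.im ≤ |s₁| * r := by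
    intro z hz
    exact rect_est (s₁ := s₁) hη₀ hκ hκr2 ⟨hz.1, hz.2.1, by linarith [hz.2.2]⟩
  have hRU : Rc (u - r) (u + r) η₀ h ⊆ {w : ℂ | |w.re - u| < ρ ∧ 0 < w.im ∧ w.im < ρ} ∩
      {z : ℂ | -h' < z.im ∧ z.im < h'} := by
    intro z hz
    obtain ⟨⟨a1, a2, a3⟩, -⟩ := hRR z hz
    have hhh := hg.hh
    exact ⟨⟨by linarith, a2, by linarith⟩, by linarith, by linarith [hz.2.2]⟩
  have habove : ∀ ζ : ℂ, -((m - b) / 4) < ζ.im → ∀ z ∈ Rc (u - r) (u + r) η₀ h,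
      b < ((ζ + g z) + phi Ψ u s₁ κ e₀ z).im := by
    intro ζ hζ z hz
    obtain ⟨⟨a1, a2, a3⟩, ⟨a4, a5⟩, ⟨a6, a7⟩, ⟨a8, a9⟩, a10⟩ := hRR z hz
    exact g_above hδ hr hr1 hmb he2 (hC.bdd z (by linarith) a2 (by linarith))
      ((hg.im z a2.le hz.2.2).trans hGr) a4 a7 a9 hζ
  refine hM.har (fun z => phi Ψ u s₁ κ e₀ z + g z) _ (u - r) (u + r) η₀ h (yc - P₀.re)
    (η * h / 8) ((m - b) / 4) ((isOpen_box u ρ).inter (isOpen_strip h'))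
    (((phi_diff hC.hol _ _ _ _).mono inter_subset_left).add
      (hg.diff.mono inter_subset_right)) hRU (by linarith) ?_ ?_ ζ h1 h2 h3 w hw
  · intro ζ hζ1 hζ2 hζ3 z hz hz'
    obtain ⟨⟨a1, a2, a3⟩, ⟨a4, a5⟩, ⟨a6, a7⟩, ⟨a8, a9⟩, a10⟩ := hRR z hz
    have a3' : z.im ≤ h := hz.2.2
    have a1ρ : |z.re - u| < ρ := by linarith
    have a3ρ : z.im < ρ := by linarith
    have hgrr : |(g z).re| ≤ r / 4 := (hg.re z a2.le a3').trans (by linarith)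
    have hζ1' : |ζ.re - (yc - P₀.re)| < r / 4 := by linarith
    rcases mem_bd hz hz' with h9 | h9 | h9
    · have hXr : (z.re - u) ^ 2 = r ^ 2 := by rw [← sq_abs (z.re - u), h9]
      have hg0 : (g z).im ≤ 0 := hg.side z a2.le a3' h9
      by_cases hzc : c₀ * r ≤ z.im
      · refine g_win hC hδ hc₀ hc1 hε hε1 hΛ hr hrρ hκr hκ he0' hwin hyc hζ1' hζ3 hgrr hg0 a1 a2
          a3 hzc ?_ (habove ζ hζ2 z hz)
        rw [hXr]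
        have e1 : 0 ≤ 2 * δ * z.im := by positivity
        linarith
      · push Not at hzc
        exact g_base hC a1ρ a2 a3ρ (habove ζ hζ2 z hz)
          (side_low hκ hδ hr hc₀ hc1 hκr2 hs hXr a2 hzc he0' hζ3 hg0)
    · refine g_base hC a1ρ a2 a3ρ (habove ζ hζ2 z hz) ?_
      have e7 : κ * ((z.re - u) ^ 2 - z.im ^ 2) = κ * (z.re - u) ^ 2 - κ * z.im ^ 2 := by ring
      have e8 := hg.bot z a2.le a3'
      rw [e7]
      rw [h9] at a8 e8 ⊢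
      linarith
    · have hκh : κ * z.im ^ 2 ≤ 2 * δ * z.im := by
        have e1 : κ * z.im ≤ κ * r := mul_le_mul_of_nonneg_left a3 hκ.le
        rw [hκr] at e1
        have e2 := mul_le_mul_of_nonneg_right e1 a2.le
        have e3 : κ * z.im ^ 2 = κ * z.im * z.im := by ring
        linarith
      by_cases hg0 : (g z).im ≤ 0
      · refine g_win hC hδ hc₀ hc1 hε hε1 hΛ hr hrρ hκr hκ he0' hwin hyc hζ1' hζ3 hgrr hg0 a1 a2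
          a3 ?_ ?_ (habove ζ hζ2 z hz)
        · rw [h9]; exact hch
        · linarith
      · have hX : |z.re - x₀| < η * h := by
          by_contra hcon
          push Not at hcon
          exact hg0 (hg.top z h9 hcon)
        apply ball_pt hC hδ hc₀ hε hε1 hr hrρ hB hδη hκr hκ he0' hζ1 hζ3 a1 h9 hX
          (hg.re z a2.le a3') (hg.im z a2.le a3')
        have hsum : ζ + (phi Ψ u s₁ κ e₀ z + g z) = (ζ + g z) + phi Ψ u s₁ κ e₀ z := by ring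
        rw [hsum]; exact habove ζ hζ2 z hz
  · intro ζ hζ1 hζ2 hζ3 z hz
    obtain ⟨⟨a1, a2, a3⟩, ⟨a4, a5⟩, ⟨a6, a7⟩, ⟨a8, a9⟩, a10⟩ := hRR z hz
    refine g_base hC (by linarith) a2 (by linarith) (habove ζ hζ2 z hz) ?_
    have hg1 := (abs_le.1 (hg.im z a2.le hz.2.2)).2
    have hdist : (|s₁| + 2 * δ) * r = |s₁| * r + 2 * δ * r := by ring
    have e3 : κ * ((z.re - u) ^ 2 - z.im ^ 2) = κ * (z.re - u) ^ 2 - κ * z.im ^ 2 := by ring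
    rw [e3]
    linarith

end Vale.Agent.P097.H929
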