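import Vale.Agent.P097.H929.Touch

/-! # P097 / row (TOUCH), part 3: the statement -/

set_option linter.all false

open scoped ComplexConjugate Topology
open Filter Metric Set Complex

namespace Vale.Agent.P097.H929

open Vale.Agent.P097.H85

/-- choice of the lower side of the rectangle -/
theorem exists_eta' {s₁ κ η A B C : ℝ} (hA : 0 < A) (hB : 0 < B) (hC : 0 < C) :
    ∃ η₀ : ℝ, 0 < η₀ ∧ η₀ < C ∧ |s₁| * η₀ + κ * η₀ ^ 2 + 1 / η * η₀ < A ∧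
      |s₁| * η₀ + κ * η₀ ^ 2 + 1 / η * η₀ < B := by
  have hten : Tendsto (fun η₀ : ℝ => |s₁| * η₀ + κ * η₀ ^ 2 + 1 / η * η₀) (𝓝[>] 0) (𝓝 0) := by
    have : Continuous fun η₀ : ℝ => |s₁| * η₀ + κ * η₀ ^ 2 + 1 / η * η₀ := by fun_prop
    have h0 := this.tendsto 0
    simp only [mul_zero, ne_eq, OfNat.ofNat_ne_zero, not_false_eq_true, zero_pow, add_zero] at h0
    exact h0.mono_left nhdsWithin_le_nhds
  have hev : ∀ᶠ η₀ : ℝ in 𝓝[>] 0, 0 < η₀ ∧ η₀ < C ∧ |s₁| * η₀ + κ * η₀ ^ 2 + 1 / η * η₀ < A ∧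
      |s₁| * η₀ + κ * η₀ ^ 2 + 1 / η * η₀ < B := by
    have h1 := hten.eventually (gt_mem_nhds hA)
    have h2 := hten.eventually (gt_mem_nhds hB)
    have h3 : ∀ᶠ η₀ : ℝ in 𝓝[>] 0, η₀ < C := nhdsWithin_le_nhds (gt_mem_nhds hC)
    have h4 : ∀ᶠ η₀ : ℝ in 𝓝[>] 0, 0 < η₀ := self_mem_nhdsWithin
    filter_upwards [h1, h2, h3, h4] with η₀ a1 a2 a3 a4
    exact ⟨a4, a3, a1, a2⟩
  exact hev.exists

/-- a point of the new window lies on a disc of the family -/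
theorem touch_point {M : Set (ℂ × ℂ)} {b m : ℝ} {Ψ : ℂ → ℂ} {u ρ : ℝ} {P₀ : ℂ} {c k c₀ ε : ℝ}
    (hC : Cmp M b m Ψ u ρ P₀ c k c₀ ε) {s₁ δ Λ κ e₀ : ℝ} (hδ : 0 < δ) (hc₀ : 0 < c₀)
    (hc1 : c₀ ≤ 1 / 2) (hε : 0 ≤ ε) {γ : ℝ} (hγ : 0 < γ) (hε2 : 8 * ε ≤ γ * c₀)
    (hΛ : 1 + |c| + |k| + 2 * ε + |s₁| + 4 * δ ≤ Λ) {r : ℝ} (hr : 0 < r)
    (hrρ : r < ρ) (hκr : κ * r = 2 * δ) (hκ : 0 < κ) (he0 : 0 ≤ e₀) {yc y' r' G : ℝ}
    (hy : |y' - yc| ≤ G / 2) (hr' : 0 < r') (hrr : r' < r) (hrr2 : 4 * (Λ * r') ≤ G)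
    (hκr' : κ * r' ≤ γ * c₀ / 4)
    (he1 : e₀ < γ * c₀ * r' / 4) {t w g : ℂ} (hgr : |g.re| ≤ G) (hgi : 2 * γ * w.im ≤ g.im)
    (h : (t, w) ∈ Win b u P₀.im c y' r' (k + s₁ + γ) c₀ Λ) :
    (t - (phi Ψ u s₁ κ e₀ w + g)).im < 0 ∧
      |(t - (phi Ψ u s₁ κ e₀ w + g)).re - (yc - P₀.re)| < 2 * G := by
  obtain ⟨hw1, hw2, hw3, ht1, ht2, ht3⟩ := h
  simp only at hw1 hw2 hw3 ht1 ht2 ht3
  have hwim : 0 < w.im := lt_of_lt_of_le (by positivity) hw2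
  have a5 : c₀ * |w.re - u| ≤ w.im := (mul_le_mul_of_nonneg_left hw1 hc₀.le).trans hw2
  obtain ⟨n1, n2⟩ := hC.re_im hε (r := r') (by linarith) hwim (by linarith) a5 hw1 hw3
  have hX2 : (w.re - u) ^ 2 ≤ r' ^ 2 := by
    rw [← sq_abs (w.re - u)]
    exact pow_le_pow_left₀ (abs_nonneg _) hw1 2
  have hκX : κ * (w.re - u) ^ 2 ≤ γ * c₀ * r' / 4 := by
    have e1 : κ * (w.re - u) ^ 2 ≤ κ * r' ^ 2 := mul_le_mul_of_nonneg_left hX2 hκ.le
    have e2 : κ * r' * r' ≤ γ * c₀ / 4 * r' := mul_le_mul_of_nonneg_right hκr' hr'.le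
    have e3 : κ * r' ^ 2 = κ * r' * r' := by ring
    linarith
  have hG0 : 0 ≤ G := (abs_nonneg _).trans hgr
  constructor
  · rw [sub_im, add_im, phi_im]
    have e1 := (abs_le.1 n2).1
    have e2 : 2 * ε * r' ≤ γ * c₀ * r' / 4 := by
      have e3 : 8 * ε * r' ≤ γ * c₀ * r' := mul_le_mul_of_nonneg_right hε2 hr'.le
      linarith
    have e4 : γ * (c₀ * r') ≤ γ * w.im := mul_le_mul_of_nonneg_left hw2 hγ.le
    have e5 : 0 ≤ κ * w.im ^ 2 := by positivity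
    have e6 : κ * ((w.re - u) ^ 2 - w.im ^ 2) = κ * (w.re - u) ^ 2 - κ * w.im ^ 2 := by ring
    have e7 : (k + s₁ + γ) * w.im = k * w.im + s₁ * w.im + γ * w.im := by ring
    have e8 : 0 < γ * w.im := by positivity
    rw [e7] at ht3
    rw [e6]
    linarith
  · have e0 := phi_re_bound hC hε (s₁ := s₁) (e₀ := e₀) hκ (by linarith) hw1 hwim hw3
      (by linarith) a5
    have e01 : 2 * (κ * r') * r' ≤ 4 * δ * r' := by
      have e6 : κ * r' ≤ κ * r := mul_le_mul_of_nonneg_left hrr.le hκ.le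
      rw [hκr] at e6
      have e7 : 2 * (κ * r') * r' ≤ 2 * (2 * δ) * r' := by
        apply mul_le_mul_of_nonneg_right _ hr'.le
        linarith
      linarith
    have e6 : (t - (phi Ψ u s₁ κ e₀ w + g)).re - (yc - P₀.re) = ((t.re - y') + (y' - yc)) -
        (((phi Ψ u s₁ κ e₀ w).re - P₀.re) + g.re) := by
      rw [sub_re, add_re]; ring
    rw [e6]
    have e7 := abs_sub ((t.re - y') + (y' - yc)) (((phi Ψ u s₁ κ e₀ w).re - P₀.re) + g.re)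
    have e12 := abs_add_le (t.re - y') (y' - yc)
    have e13 := abs_add_le ((phi Ψ u s₁ κ e₀ w).re - P₀.re) g.re
    have e10 : (1 + |c| + |k| + 2 * ε + |s₁| + 4 * δ) * r' ≤ Λ * r' :=
      mul_le_mul_of_nonneg_right hΛ hr'.le
    have e11 : (1 + |c| + |k| + 2 * ε + |s₁| + 4 * δ) * r' =
      r' + (|c| + |k| + 2 * ε) * r' + |s₁| * r' + 4 * δ * r' := by ring
    have e14 : 0 < Λ * r' := by
      have : 0 < 1 + |c| + |k| + 2 * ε + |s₁| + 4 * δ := by positivity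
      have : 0 < Λ := by linarith
      positivity
    linarith

/-- **(TOUCH)**  One window of the slope `s` (`s = k + s₁`, up to `3 δ`) at the scale `r`, and one ball
of size `η h` over one point `x₀ + i h` of the edge of slope `s`: then all windows of the slope
`s + η ^ 3 / 80000` at the smaller scales are regular. -/
theorem touch {M : Set (ℂ × ℂ)} {b m : ℝ} {Ψ : ℂ → ℂ} {u ρ : ℝ} {P₀ : ℂ} {c k c₀ ε : ℝ}
    (hM : RH b M) (hC : Cmp M b m Ψ u ρ P₀ c k c₀ ε) {s₁ δ Λ : ℝ} (hbm : b < m) (hδ : 0 < δ)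
    (hc₀ : 0 < c₀) (hc1 : c₀ ≤ 1 / 2) (hε : 0 ≤ ε) (hε1 : 8 * ε ≤ δ * c₀) (hs : |s₁| * c₀ ≤ δ)
    (hΛ : 1 + |c| + |k| + 2 * ε + |s₁| + 4 * δ ≤ Λ) {r : ℝ} (hr : 0 < r)
    (hrρ : r < ρ) (hr1 : (|s₁| + 2 * δ) * r ≤ (m - b) / 16) {y : ℝ}
    (hwin : Win b u P₀.im c y r (k + s₁ + 3 * δ) c₀ Λ ⊆ M)
    {x₀ h η yc : ℝ} (hB : Bump M b m u P₀.im c (k + s₁) yc r c₀ x₀ h η) (hyc : |yc - y| ≤ r / 4)
    (hδη : 100000 * δ ≤ η ^ 3) {y' r' : ℝ} (hy : |y' - yc| ≤ η * h / 32) (hr' : 0 < r')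
    (hrr : 128 * (Λ * r') ≤ η * h) (hrr2 : 8 * r' ≤ c₀ * r) :
    Win b u P₀.im c y' r' (k + s₁ + η ^ 3 / 80000) c₀ Λ ⊆ M := by
  have hη := hB.hη
  have hη1 := hB.hη1
  have hh := hB.hh
  have hr4 := hB.hr
  have hmb := hB.hmb
  have hg := kr_ker hη hη1 hh hB.hx hr4
  set g := ker (η ^ 3 * h ^ 2 / 384) x₀ (h + η ^ 2 * h / 12) with hgdef
  set γ : ℝ := η ^ 3 / 80000 with hγ
  have hη3 : 0 < η ^ 3 := by positivity
  have hγ0 : 0 < γ := by positivity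
  have hδγ : δ ≤ γ := by rw [hγ]; linarith
  have hη31 : η ^ 3 ≤ η := by
    have e1 : η ^ 2 ≤ 1 := by nlinarith
    have e2 : η ^ 2 * η ≤ 1 * η := mul_le_mul_of_nonneg_right e1 hη.le
    linarith
  have hηh : η * h ≤ h := by nlinarith
  rintro ⟨t, w⟩ hp
  obtain ⟨hw1, hw2, hw3, ht1, ht2, ht3⟩ := id hp
  simp only at hw1 hw2 hw3 ht1 ht2 ht3
  set κ : ℝ := 2 * δ / r with hκd
  have hκr : κ * r = 2 * δ := by rw [hκd]; field_simp
  have hκ : 0 < κ := by rw [hκd]; positivity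
  have hwim : 0 < w.im := lt_of_lt_of_le (by positivity) hw2
  have hΛ1 : 1 ≤ Λ := by
    have := abs_nonneg c
    have := abs_nonneg k
    have := abs_nonneg s₁
    linarith
  have hr'Λ : r' ≤ Λ * r' := by nlinarith
  have hr'h : r' ≤ h / 128 := by linarith
  have hκr' : κ * r' ≤ γ * c₀ / 4 := by
    have e1 : κ * (8 * r') ≤ κ * (c₀ * r) := mul_le_mul_of_nonneg_left hrr2 hκ.le
    have e2 : κ * (c₀ * r) = c₀ * (κ * r) := by ring
    rw [e2, hκr] at e1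
    have e3 : c₀ * δ ≤ c₀ * γ := mul_le_mul_of_nonneg_left hδγ hc₀.le
    linarith
  obtain ⟨η₀, hη₀, hη₀1, he1, he2⟩ := exists_eta' (s₁ := s₁) (κ := κ) (η := η)
    (show (0 : ℝ) < γ * c₀ * r' / 4 by positivity) (show (0 : ℝ) < (m - b) / 32 by linarith) hwim
  set e₀ := |s₁| * η₀ + κ * η₀ ^ 2 + 1 / η * η₀ with he₀
  have he0 : 0 ≤ e₀ := by positivity
  have hwu : |w.re - u| ≤ h / 8 := by linarith
  have hwi : w.im ≤ h / 8 := by linarith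
  have hgr := hg.re w hwim.le (by linarith)
  have hgl := hg.low w hwim.le hwu hwi
  have hε2 : 8 * ε ≤ γ * c₀ := by
    have := mul_le_mul_of_nonneg_right hδγ hc₀.le
    linarith
  obtain ⟨d1, d2⟩ := touch_point hC hδ hc₀ hc1 hε hγ0 hε2 hΛ hr hrρ hκr hκ he0
    (yc := yc) (G := η * h / 16) (by linarith) hr' (by linarith) (by linarith) hκr' he1 hgr hgl hp
  have hXl := abs_lt.1 (lt_of_le_of_lt hw1 (by linarith : r' < r))
  have hwRo : w ∈ Ro (u - r) (u + r) η₀ h :=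
    ⟨⟨by linarith, by linarith⟩, hη₀1, by linarith⟩
  have key := fun ζ h1 h2 h3 => bump_core hM hC hbm hδ hc₀ hc1 hε hε1 hs hΛ hr hrρ hr1 hwin hB hyc
    (by linarith) hg hκr hκ hη₀ (le_refl _) he2 (ζ := ζ) h1 h2 h3 hwRo
  set φw : ℂ := phi Ψ u s₁ κ e₀ w + g w with hφw
  have d2' : |(t - φw).re - (yc - P₀.re)| < η * h / 8 := by linarith
  by_cases hζβ : -((m - b) / 4) < (t - φw).im
  · have := key (t - φw) d2' hζβ d1
    rwa [sub_add_cancel] at this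
  · push Not at hζβ
    have h1 := key (((t - φw).re : ℂ) + ((-(m - b) / 8 : ℝ) : ℂ) * I) (by simpa using d2')
      (by simp; linarith) (by simp; linarith)
    have h2 := hM.dn.down _ _ t.im h1 ht2 (by
      rw [sub_im] at hζβ
      simp
      linarith)
    have h3 : ((((((t - φw).re : ℂ) + ((-(m - b) / 8 : ℝ) : ℂ) * I) + φw).re : ℂ) +
        t.im * I) = t := by
      apply Complex.ext
      · simp
      · simp
    rwa [h3] at h2

end Vale.Agent.P097.H929
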